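import Mathlib

/-!
# P025 G-WIND (4.5): duality for subgroups of (Z/n)^E with values in roots of unity
-/

namespace P025H613

theorem dual {E : Type*} [Fintype E] {F : Type*} [Field F] {n : ℕ} [NeZero n] {ζ : F}
    (hζ : IsPrimitiveRoot ζ n) (H : AddSubgroup (E → ZMod n)) (c : E → ℤ)
    (hc : (fun w => (c w : ZMod n)) ∉ H) :
    ∃ γ : E → F, (∀ w, γ w ^ n = 1) ∧
      (∀ k : E → ℤ, (fun w => (k w : ZMod n)) ∈ H → ∏ w, γ w ^ k w = 1) ∧
      ∏ w, γ w ^ c w ≠ 1 := by
  classical
  let Q := (E → ZMod n) ⧸ H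
  have : Finite Q := inferInstance
  have hexp : Monoid.exponent (Multiplicative Q) ∣ n := by
    refine Monoid.exponent_dvd_of_forall_pow_eq_one fun g => ?_
    induction g using Multiplicative.rec with | _ g =>
    obtain ⟨d, rfl⟩ := QuotientAddGroup.mk_surjective g
    rw [← ofAdd_nsmul, ← QuotientAddGroup.mk_nsmul]
    have : n • d = 0 := by ext w; simp
    rw [this]
    rfl
  have h1 : HasEnoughRootsOfUnity F n := ⟨⟨ζ, hζ⟩, inferInstance⟩
  have h2 : HasEnoughRootsOfUnity F (Monoid.exponent (Multiplicative Q)) :=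
    HasEnoughRootsOfUnity.of_dvd F hexp
  have hne : (Multiplicative.ofAdd (QuotientAddGroup.mk (s := H) (fun w => (c w : ZMod n))) :
      Multiplicative Q) ≠ 1 := by
    intro h
    apply hc
    rw [← QuotientAddGroup.eq_zero_iff]
    exact h
  obtain ⟨φ, hφ⟩ := CommGroup.exists_apply_ne_one_of_hasEnoughRootsOfUnity
    (Multiplicative Q) F hne
  have key : ∀ k : E → ℤ, (∏ w, ((φ (Multiplicative.ofAdd
      (QuotientAddGroup.mk (s := H) (Pi.single w 1))) : Fˣ) : F) ^ k w) =
      (φ (Multiplicative.ofAdd (QuotientAddGroup.mk (s := H) (fun w => (k w : ZMod n)))) : Fˣ) := by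
    intro k
    have h3 : (fun w => (k w : ZMod n)) = ∑ w, k w • (Pi.single w 1 : E → ZMod n) := by
      ext w
      rw [Finset.sum_apply, Finset.sum_eq_single w]
      · simp
      · intro b _ hb
        simp [hb.symm]
      · simp
    rw [h3]
    have h4 : (QuotientAddGroup.mk (s := H) (∑ w, k w • (Pi.single w 1 : E → ZMod n))) =
        ∑ w, k w • QuotientAddGroup.mk (s := H) (Pi.single w 1 : E → ZMod n) := by
      change QuotientAddGroup.mk' H _ = ∑ w, k w • QuotientAddGroup.mk' H _
      rw [map_sum]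
      exact Finset.sum_congr rfl fun w _ => map_zsmul _ _ _
    rw [h4, ofAdd_sum, map_prod, Units.coe_prod]
    refine Finset.prod_congr rfl fun w _ => ?_
    rw [ofAdd_zsmul, map_zpow, Units.val_zpow_eq_zpow_val]
  refine ⟨fun w => ((φ (Multiplicative.ofAdd
      (QuotientAddGroup.mk (s := H) (Pi.single w 1))) : Fˣ) : F), ?_, ?_, ?_⟩
  · intro w
    have h5 := Monoid.exponent_dvd_iff_forall_pow_eq_one.1 hexp
      (Multiplicative.ofAdd (QuotientAddGroup.mk (s := H) (Pi.single w 1)))
    change ((φ _ : Fˣ) : F) ^ n = 1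
    rw [← Units.val_pow_eq_pow_val, ← map_pow, h5, map_one, Units.val_one]
  · intro k hk
    rw [key]
    rw [← QuotientAddGroup.eq_zero_iff] at hk
    rw [hk, ofAdd_zero, map_one, Units.val_one]
  · rw [key]
    intro h
    apply hφ
    exact Units.ext h

end P025H613
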