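import Vale.Agent.P025.R2.H613.Pebble
import Vale.Agent.P025.R2.H613.Dual
import Vale.Agent.P025.R2.H544.Patch

/-!
# P025 G-WIND (4.4), (4.5): pebble lemma and windings corollary, from the existence of moves
-/

open TensorProduct P025H544 Polynomial

namespace P025H613

universe u

variable {F F1 F2 F0 : Type*} [Field F] [Field F1] [Field F2] [Field F0]
  [Algebra F F1] [Algebra F F2] [Algebra F F0] [Algebra F1 F0] [Algebra F2 F0]
  [IsScalarTower F F1 F0] [IsScalarTower F F2 F0] {K : Type u} [Field K] [Algebra F K]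

open Classical in
/-- MOVES: for every finite Galois extension K' of K and every automorphism there is an element g
whose norm is in S and whose vertex degrees modulo n are those of (conjugate of v0) - v0 -/
def Moves (F F1 F2 : Type*) {F0 : Type*} [Field F] [Field F1] [Field F2] [Field F0]
    [Algebra F F1] [Algebra F F2] [Algebra F F0] [Algebra F1 F0] [Algebra F2 F0]
    {K : Type u} [Field K] [Algebra F K] (W : F0 → ℤ) (n : ℕ) (S : Subgroup Kˣ) : Prop :=
  ∀ (K' : Type u) [Field K'] [Algebra F K'] [Algebra K K'] [IsScalarTower F K K']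
    [FiniteDimensional K K'] [IsGalois K K'] (σ : K' ≃ₐ[K] K'),
    ∃ (g : K'ˣ) (v0 : Pt F F1 K'), Units.map (Algebra.norm K) g ∈ S ∧
      (∀ v : Pt F F1 K', (n : ℤ) ∣ wd (fun t => W (algebraMap F1 F0 t)) v
        (1 ⊗ₜ (g : K') : F1 ⊗[F] K') -
        ((if v = ptMap F F1 (σ.toAlgHom.restrictScalars F) v0 then 1 else 0)
        - (if v = v0 then 1 else 0))) ∧
      (∀ d : Pt F F2 K', (n : ℤ) ∣ wd (fun t => W (algebraMap F2 F0 t)) d
        (1 ⊗ₜ (g : K') : F2 ⊗[F] K'))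

variable {W : F0 → ℤ} {n : ℕ} [NeZero n] {ζ : F}

/-- (4.4) PEBBLE LEMMA -/
theorem pebble [CharZero F] [FiniteDimensional F K] (hP : Patch F F1 F2 F0) (hW : IsWind W)
    (hζ : IsPrimitiveRoot ζ n) {S : Subgroup Kˣ} (hM : Moves F F1 F2 W n S)
    [Fintype (Pt F F0 K)] (γ : (F0 ⊗[F] K)ˣ) (hγ : γ ^ n = 1)
    (h : ∀ f ∈ S, ∏ w : Pt F F0 K, val w (γ : F0 ⊗[F] K) ^
      wd W w (1 ⊗ₜ (f : K) : F0 ⊗[F] K) = 1) :
    ∃ (z1 : (F1 ⊗[F] K)ˣ) (z2 : (F2 ⊗[F] K)ˣ), z1 ^ n = 1 ∧ z2 ^ n = 1 ∧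
      (γ : F0 ⊗[F] K) = bc F F1 F0 K z1 * bc F F2 F0 K z2 := by
  have hn : n ≠ 0 := NeZero.ne n
  obtain ⟨x, a, b, hx0, hx⟩ := hP.exists_xgamma n γ hγ
  rw [← hP.xgamma_isPow_iff n hn γ x a b hx]
  obtain ⟨hab, ha, hb⟩ := hx
  have : CharZero K := charZero_of_injective_algebraMap (algebraMap F K).injective
  have hnK : (n : K) ≠ 0 := by exact_mod_cast hn
  -- splitting field
  let p : K[X] := X ^ n - C x
  have hsep : p.Separable := separable_X_pow_sub_C x hnK hx0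
  let K' := p.SplittingField
  have hgal : IsGalois K K' := IsGalois.of_separable_splitting_field hsep
  have : FiniteDimensional F K' := FiniteDimensional.trans F K K'
  have hspl : (p.map (algebraMap K K')).Splits := SplittingField.splits p
  have hdeg : (p.map (algebraMap K K')).degree ≠ 0 := by
    rw [degree_map, degree_X_pow_sub_C (Nat.pos_of_ne_zero hn)]
    exact_mod_cast hn
  obtain ⟨y, hy⟩ := hspl.exists_eval_eq_zero hdeg
  have hyx : y ^ n = algebraMap K K' x := by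
    rw [eval_map, eval₂_sub, eval₂_X_pow, eval₂_C, sub_eq_zero] at hy
    exact hy
  have hy0 : y ≠ 0 := by
    rintro rfl
    rw [zero_pow hn] at hyx
    exact hx0 ((map_eq_zero (algebraMap K K')).1 hyx.symm)
  have hfix : ∀ σ : K' ≃ₐ[K] K', σ y = y := by
    intro σ
    have h1 : (σ y / y) ^ n = 1 := by
      rw [div_pow, ← map_pow, hyx, AlgEquiv.commutes, div_self]
      rw [← hyx]
      exact pow_ne_zero _ hy0
    have hζ' : IsPrimitiveRoot (algebraMap F K' ζ) n :=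
      hζ.map_of_injective (algebraMap F K').injective
    obtain ⟨i, _, hi⟩ := hζ'.eq_pow_of_pow_eq_one h1
    have hc : (ζ ^ i) ^ n = 1 := by rw [← pow_mul, mul_comm, pow_mul, hζ.pow_eq_one, one_pow]
    have hσ : σ y = algebraMap F K' (ζ ^ i) * y := by
      rw [map_pow, hi, div_mul_cancel₀ _ hy0]
    obtain ⟨g, v0, hgS, hV, hD⟩ := hM K' σ
    have hcore := core (F := F) (F1 := F1) (F2 := F2) (F0 := F0) (K := K) (K' := K') hζ hW
      (γ : F0 ⊗[F] K) (by rw [← Units.val_pow_eq_pow_val, hγ, Units.val_one]) x a b hab ha hb y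
      hyx σ (ζ ^ i) hc hσ (g : K') g.ne_zero v0 hV hD
    have h2 := h _ hgS
    rw [Units.coe_map] at h2
    change ∏ w : Pt F F0 K, val w (γ : F0 ⊗[F] K) ^
      wd W w (1 ⊗ₜ (Algebra.norm K (g : K')) : F0 ⊗[F] K) = 1 at h2
    rw [h2, one_mul] at hcore
    rw [hσ, hcore, map_one, one_mul]
  have hbot : y ∈ (⊥ : IntermediateField K K') :=
    (IsGalois.mem_bot_iff_fixed y).2 hfix
  obtain ⟨y0, hy0'⟩ := IntermediateField.mem_bot.1 hbot
  refine ⟨y0, ?_⟩
  apply (algebraMap K K').injective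
  rw [map_pow, hy0', hyx]

/-- a function on the points with values in the n-th roots of unity is a root of unity -/
theorem exists_of_fun {F A K : Type*} [Field F] [Field A] [Algebra F A] [Field K] [Algebra F K]
    [FiniteDimensional F K] [Algebra.IsSeparable F K] {n : ℕ} [NeZero n] (c : Pt F A K → F)
    (hc : ∀ w, c w ^ n = 1) :
    ∃ γ : (A ⊗[F] K)ˣ, γ ^ n = 1 ∧ ∀ w, val w (γ : A ⊗[F] K) = c w := by
  let γ0 : A ⊗[F] K := (IsArtinianRing.equivPi (A ⊗[F] K)).symm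
    (fun m => Ideal.Quotient.mk m.asIdeal (algebraMap F _
      (c (IsArtinianRing.primeSpectrumEquivMaximalSpectrum.symm m))))
  have h0 : ∀ w : Pt F A K, Ideal.Quotient.mk w.asIdeal γ0 =
      Ideal.Quotient.mk w.asIdeal (algebraMap F _ (c w)) := by
    intro w
    have h1 : IsArtinianRing.equivPi (A ⊗[F] K) γ0 =
      (fun m => Ideal.Quotient.mk m.asIdeal (algebraMap F _
        (c (IsArtinianRing.primeSpectrumEquivMaximalSpectrum.symm m)))) := by
      rw [AlgEquiv.apply_symm_apply]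
    exact congrFun h1 (IsArtinianRing.primeSpectrumEquivMaximalSpectrum w)
  have h1 : γ0 ^ n = 1 := by
    refine ext_points fun w => ?_
    rw [map_pow, h0, ← map_pow, ← map_pow, hc, map_one]
  have hu : γ0 * γ0 ^ (n - 1) = 1 := by
    rw [← pow_succ', Nat.sub_add_cancel (Nat.pos_of_ne_zero (NeZero.ne n)), h1]
  refine ⟨Units.mkOfMulEqOne γ0 _ hu, Units.ext ?_, fun w => ?_⟩
  · rw [Units.val_pow_eq_pow_val]
    exact h1
  · exact val_eq (h0 w)

/-- the winding of an element of K at an edge -/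
theorem wd_one_tmul_mul [FiniteDimensional F K] (hW : IsWind W) (w : Pt F F0 K) (f g : Kˣ) :
    wd W w (1 ⊗ₜ ((f * g : Kˣ) : K) : F0 ⊗[F] K) =
      wd W w (1 ⊗ₜ (f : K) : F0 ⊗[F] K) + wd W w (1 ⊗ₜ (g : K) : F0 ⊗[F] K) := by
  have : (1 ⊗ₜ[F] ((f * g : Kˣ) : K) : F0 ⊗[F] K) = (1 ⊗ₜ (f : K)) * (1 ⊗ₜ (g : K)) := by
    rw [Units.val_mul, Algebra.TensorProduct.tmul_mul_tmul, one_mul]
  rw [this, wd_mul hW w (isUnit_one_tmul f.ne_zero) (isUnit_one_tmul g.ne_zero)]

theorem wd_one_tmul_one [FiniteDimensional F K] (hW : IsWind W) (w : Pt F F0 K) :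
    wd W w (1 ⊗ₜ ((1 : Kˣ) : K) : F0 ⊗[F] K) = 0 := by
  have h := wd_one_tmul_mul hW w (1 : Kˣ) 1
  rw [mul_one] at h
  omega

theorem wd_one_tmul_inv [FiniteDimensional F K] (hW : IsWind W) (w : Pt F F0 K) (f : Kˣ) :
    wd W w (1 ⊗ₜ ((f⁻¹ : Kˣ) : K) : F0 ⊗[F] K) = - wd W w (1 ⊗ₜ (f : K) : F0 ⊗[F] K) := by
  have h := wd_one_tmul_mul hW w f f⁻¹
  rw [mul_inv_cancel, wd_one_tmul_one hW] at h
  omega

/-- the vectors in (Z/n)^E which on the set T of edges are the windings of an element of S -/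
noncomputable def windGrp [FiniteDimensional F K] (hW : IsWind W) (n : ℕ) (T : Set (Pt F F0 K))
    (S : Subgroup Kˣ) : AddSubgroup (Pt F F0 K → ZMod n) where
  carrier := {d | ∃ f ∈ S, ∀ w ∈ T, d w = (wd W w (1 ⊗ₜ (f : K) : F0 ⊗[F] K) : ZMod n)}
  zero_mem' := ⟨1, S.one_mem, fun w _ => by rw [wd_one_tmul_one hW]; simp⟩
  add_mem' := by
    rintro d e ⟨f, hf, hd⟩ ⟨g, hg, he⟩
    refine ⟨f * g, S.mul_mem hf hg, fun w hw => ?_⟩
    rw [Pi.add_apply, hd w hw, he w hw, wd_one_tmul_mul hW, Int.cast_add]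
  neg_mem' := by
    rintro d ⟨f, hf, hd⟩
    refine ⟨f⁻¹, S.inv_mem hf, fun w hw => ?_⟩
    rw [Pi.neg_apply, hd w hw, wd_one_tmul_inv hW, Int.cast_neg]

/-- duality: if the vector c is not realised on T by an element of S, there are functions alpha,
beta on the two sorts of vertices with values in the n-th roots of unity, equal along every edge
outside T and with nontrivial pairing with c -/
theorem exists_dual [CharZero F] [FiniteDimensional F K] (hP : Patch F F1 F2 F0)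
    (hW : IsWind W) (hζ : IsPrimitiveRoot ζ n) {S : Subgroup Kˣ} (hM : Moves F F1 F2 W n S)
    [Fintype (Pt F F0 K)] (T : Set (Pt F F0 K)) (c : Pt F F0 K → ℤ)
    (hc : ¬ ∃ f ∈ S, ∀ w ∈ T, (n : ℤ) ∣ wd W w (1 ⊗ₜ (f : K) : F0 ⊗[F] K) - c w) :
    ∃ (α : Pt F F1 K → F) (β : Pt F F2 K → F), (∀ v, α v ^ n = 1) ∧ (∀ d, β d ^ n = 1) ∧
      (∀ w ∉ T, α (edge F F1 F0 K w) = β (edge F F2 F0 K w)) ∧
      ∏ w : Pt F F0 K, (α (edge F F1 F0 K w) * (β (edge F F2 F0 K w))⁻¹) ^ c w ≠ 1 := by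
  classical
  have hcH : (fun w => (c w : ZMod n)) ∉ windGrp hW n T S := by
    rintro ⟨f, hf, h⟩
    refine hc ⟨f, hf, fun w hw => ?_⟩
    rw [← ZMod.intCast_zmod_eq_zero_iff_dvd, Int.cast_sub, sub_eq_zero]
    exact (h w hw).symm
  obtain ⟨γ', hγ1, hγ2, hγ3⟩ := dual hζ _ c hcH
  obtain ⟨γ, hγn, hγv⟩ := exists_of_fun γ' hγ1
  have hout : ∀ w ∉ T, γ' w = 1 := by
    intro w hw
    have h := hγ2 (Pi.single w 1) ⟨1, S.one_mem, fun w' hw' => by
      have : w' ≠ w := by rintro rfl; exact hw hw'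
      rw [wd_one_tmul_one hW]
      simp [this]⟩
    rw [Finset.prod_eq_single w] at h
    · simpa using h
    · intro w' _ hw'
      simp [hw']
    · simp
  obtain ⟨z1, z2, hz1, hz2, hγz⟩ := pebble hP hW hζ hM γ hγn (by
    intro f hf
    have h := hγ2 (fun w => wd W w (1 ⊗ₜ (f : K) : F0 ⊗[F] K)) ⟨f, hf, fun w _ => rfl⟩
    rw [← h]
    exact Finset.prod_congr rfl fun w _ => by rw [hγv])
  have hz1' : (z1 : F1 ⊗[F] K) ^ n = 1 := by rw [← Units.val_pow_eq_pow_val, hz1, Units.val_one]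
  have hz2' : (z2 : F2 ⊗[F] K) ^ n = 1 := by rw [← Units.val_pow_eq_pow_val, hz2, Units.val_one]
  have hval : ∀ w : Pt F F0 K, γ' w =
      val (edge F F1 F0 K w) (z1 : F1 ⊗[F] K) * val (edge F F2 F0 K w) (z2 : F2 ⊗[F] K) := by
    intro w
    rw [← hγv, hγz, val_mul hζ, val_bc hζ w hz1', val_bc hζ w hz2']
    · rw [← map_pow, hz1', map_one]
    · rw [← map_pow, hz2', map_one]
  have hne2 : ∀ d : Pt F F2 K, val d (z2 : F2 ⊗[F] K) ≠ 0 := by
    intro d h
    have := val_pow hζ d hz2'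
    rw [h, zero_pow (NeZero.ne n)] at this
    exact zero_ne_one this
  refine ⟨fun v => val v (z1 : F1 ⊗[F] K), fun d => (val d (z2 : F2 ⊗[F] K))⁻¹,
    fun v => val_pow hζ v hz1', fun d => ?_, fun w hw => ?_, ?_⟩
  · rw [inv_pow, val_pow hζ d hz2', inv_one]
  · have h := hval w
    rw [hout w hw] at h
    exact eq_inv_of_mul_eq_one_left h.symm
  · intro h
    apply hγ3
    rw [← h]
    refine Finset.prod_congr rfl fun w _ => ?_
    rw [inv_inv, ← hval]

open Classical in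
/-- (4.5) windings at one vertex v: if any two neighbours of v are joined by a path avoiding v
(here in the form: functions which agree along all edges not at v are constant on the neighbours
of v), then all windings with sum 0 modulo n at the edges of v are realised by elements of S -/
theorem windings_at [CharZero F] [FiniteDimensional F K] (hP : Patch F F1 F2 F0)
    (hW : IsWind W) (hζ : IsPrimitiveRoot ζ n) {S : Subgroup Kˣ} (hM : Moves F F1 F2 W n S)
    [Fintype (Pt F F0 K)] (v : Pt F F1 K)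
    (hconn : ∀ (α : Pt F F1 K → F) (β : Pt F F2 K → F),
      (∀ w : Pt F F0 K, edge F F1 F0 K w ≠ v → α (edge F F1 F0 K w) = β (edge F F2 F0 K w)) →
      ∃ c : F, ∀ w : Pt F F0 K, edge F F1 F0 K w = v → β (edge F F2 F0 K w) = c)
    (c : Pt F F0 K → ℤ)
    (hc : (n : ℤ) ∣ ∑ w : Pt F F0 K with edge F F1 F0 K w = v, c w) :
    ∃ f ∈ S, ∀ w : Pt F F0 K, edge F F1 F0 K w = v →
      (n : ℤ) ∣ wd W w (1 ⊗ₜ (f : K) : F0 ⊗[F] K) - c w := by
  by_contra hcon
  obtain ⟨α, β, hα, hβ, hαβ, hne⟩ := exists_dual hP hW hζ hM {w | edge F F1 F0 K w = v} c hcon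
  obtain ⟨t, ht⟩ := hconn α β hαβ
  apply hne
  have hn0 : ∀ {s : F}, s ^ n = 1 → s ≠ 0 := by
    rintro s hs rfl
    rw [zero_pow (NeZero.ne n)] at hs
    exact zero_ne_one hs
  have h1 : ∀ w : Pt F F0 K, (α (edge F F1 F0 K w) * (β (edge F F2 F0 K w))⁻¹) ^ c w =
      if edge F F1 F0 K w = v then (α v * t⁻¹) ^ c w else 1 := by
    intro w
    split_ifs with h
    · rw [ht w h, h]
    · rw [hαβ w h, mul_inv_cancel₀ (hn0 (hβ _)), one_zpow]
  rw [Finset.prod_congr rfl fun w _ => h1 w, ← Finset.prod_filter]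
  by_cases hE : ∃ w : Pt F F0 K, edge F F1 F0 K w = v
  · obtain ⟨w0, hw0⟩ := hE
    have htn : t ^ n = 1 := by rw [← ht w0 hw0]; exact hβ _
    have hs : (α v * t⁻¹) ^ n = 1 := by rw [mul_pow, inv_pow, hα, htn, inv_one, mul_one]
    rw [← zpow_sum _ (hn0 hs)]
    have h2 := zpow_eq_of_dvd hs (i := ∑ w : Pt F F0 K with edge F F1 F0 K w = v, c w) (j := 0)
      (by rw [sub_zero]; exact hc)
    rw [h2, zpow_zero]
  · push Not at hE
    rw [Finset.filter_false_of_mem fun w _ => hE w, Finset.prod_empty]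

open Classical in
/-- (4.5) full form: every cycle modulo n is the winding vector of an element of S -/
theorem windings [CharZero F] [FiniteDimensional F K] (hP : Patch F F1 F2 F0)
    (hW : IsWind W) (hζ : IsPrimitiveRoot ζ n) {S : Subgroup Kˣ} (hM : Moves F F1 F2 W n S)
    [Fintype (Pt F F0 K)] (c : Pt F F0 K → ℤ)
    (hcV : ∀ v : Pt F F1 K, (n : ℤ) ∣ ∑ w : Pt F F0 K with edge F F1 F0 K w = v, c w)
    (hcD : ∀ d : Pt F F2 K, (n : ℤ) ∣ ∑ w : Pt F F0 K with edge F F2 F0 K w = d, c w) :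
    ∃ f ∈ S, ∀ w : Pt F F0 K, (n : ℤ) ∣ wd W w (1 ⊗ₜ (f : K) : F0 ⊗[F] K) - c w := by
  by_contra hcon
  let i2 : Fintype (Pt F F1 K) := Fintype.ofFinite _
  let i3 : Fintype (Pt F F2 K) := Fintype.ofFinite _
  obtain ⟨α, β, hα, hβ, hαβ, hne⟩ := exists_dual hP hW hζ hM Set.univ c (by simpa using hcon)
  apply hne
  have hn0 : ∀ {s : F}, s ^ n = 1 → s ≠ 0 := by
    rintro s hs rfl
    rw [zero_pow (NeZero.ne n)] at hs
    exact zero_ne_one hs
  have h1 : ∏ w : Pt F F0 K, α (edge F F1 F0 K w) ^ c w = 1 := by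
    rw [prod_fiber (edge F F1 F0 K) α (fun v => hn0 (hα v))]
    refine Finset.prod_eq_one fun v _ => ?_
    have := zpow_eq_of_dvd (hα v) (i := ∑ w : Pt F F0 K with edge F F1 F0 K w = v, c w) (j := 0)
      (by rw [sub_zero]; exact hcV v)
    rw [this, zpow_zero]
  have h2 : ∏ w : Pt F F0 K, β (edge F F2 F0 K w) ^ c w = 1 := by
    rw [prod_fiber (edge F F2 F0 K) β (fun v => hn0 (hβ v))]
    refine Finset.prod_eq_one fun v _ => ?_
    have := zpow_eq_of_dvd (hβ v) (i := ∑ w : Pt F F0 K with edge F F2 F0 K w = v, c w) (j := 0)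
      (by rw [sub_zero]; exact hcD v)
    rw [this, zpow_zero]
  rw [Finset.prod_congr rfl fun w _ => mul_zpow _ _ _, Finset.prod_mul_distrib, h1, one_mul]
  rw [Finset.prod_congr rfl fun w _ => inv_zpow _ _, Finset.prod_inv_distrib, h2, inv_one]

end P025H613
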