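import Vale.Agent.P025.R2.H613.Main
import Vale.Agent.P025.R2.H816.Pic
import Vale.Agent.P025.R2.H492.Ext4

/-!
# P025 G-WIND: moves from divisibility of the divisor classes of degree zero
-/

open TensorProduct P025H544 Vale.Agent.P019P P025H492 P025H816

namespace P025H613

universe u

open Classical in
/-- degree of the part of a divisor in a set of places -/
noncomputable def degAt {X : Type*} (p : X → Prop) : (X →₀ ℤ) →+ ℤ :=
  Finsupp.liftAddHom fun P => if p P then AddMonoidHom.id ℤ else 0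

open Classical in
theorem degAt_single {X : Type*} (p : X → Prop) (P : X) (m : ℤ) :
    degAt p (Finsupp.single P m) = if p P then m else 0 := by
  unfold degAt
  rw [Finsupp.liftAddHom_apply_single]
  split_ifs <;> rfl

/-- functions all of whose orders are divisible by n -/
def divSub (C K : Type*) [Field C] [Field K] [Algebra C K] [CFF C K] (n : ℕ) : Subgroup Kˣ where
  carrier := {f | ∀ P : Plk C K, (n : ℤ) ∣ ord P (f : K)}
  one_mem' := fun P => by rw [Units.val_one, ord_one]; exact dvd_zero _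
  mul_mem' := fun {f g} hf hg P => by
    rw [Units.val_mul, ord_mul P f.ne_zero g.ne_zero]
    exact dvd_add (hf P) (hg P)
  inv_mem' := fun {f} hf P => by
    rw [Units.val_inv_eq_inv_val, ord_inv]
    exact (dvd_neg).2 (hf P)

theorem mem_divSub {C K : Type*} [Field C] [Field K] [Algebra C K] [CFF C K] {n : ℕ} {f : Kˣ} :
    f ∈ divSub C K n ↔ ∀ P : Plk C K, (n : ℤ) ∣ ord P (f : K) := Iff.rfl

/-- the two sides of a finite extension K of F: places of the first side, vertex of a place,
sum formulas -/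
structure Sides (C F F1 F2 : Type*) {F0 : Type*} [Field C] [Field F] [Field F1] [Field F2]
    [Field F0] [Algebra F F1] [Algebra F F2] [Algebra F1 F0] [Algebra F2 F0]
    (W : F0 → ℤ) (K : Type*) [Field K] [Algebra C K] [CFF C K] [Algebra F K] where
  /-- places of the first side -/
  inn : Plk C K → Prop
  /-- vertex of a place of the first side -/
  vp : Plk C K → Pt F F1 K
  /-- vertex of a place of the second side -/
  dp : Plk C K → Pt F F2 K
  sumV : ∀ g : K, g ≠ 0 → ∀ v : Pt F F1 K, wd (fun t => W (algebraMap F1 F0 t)) v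
    (1 ⊗ₜ g : F1 ⊗[F] K) = degAt (fun P => inn P ∧ vp P = v) (dv C g)
  sumD : ∀ g : K, g ≠ 0 → ∀ d : Pt F F2 K, wd (fun t => W (algebraMap F2 F0 t)) d
    (1 ⊗ₜ g : F2 ⊗[F] K) = - degAt (fun P => ¬ inn P ∧ dp P = d) (dv C g)

variable {C F F1 F2 F0 : Type u} [Field C] [Field F] [Field F1] [Field F2] [Field F0]
  [Algebra C F] [Algebra F F1] [Algebra F F2] [Algebra F F0] [Algebra F1 F0] [Algebra F2 F0]
  [IsScalarTower F F1 F0] [IsScalarTower F F2 F0] {W : F0 → ℤ}

/-- Moves for the functions with all orders divisible by n -/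
theorem moves_of {K : Type u} [Field K] [Algebra C K] [Algebra F K] [IsScalarTower C F K]
    [CFF C K] {n : ℕ} (hn : (n : C) ≠ 0)
    (hS : ∀ (K' : Type u) [Field K'] [Algebra C K'] [Algebra F K'] [Algebra K K']
      [IsScalarTower C F K'] [IsScalarTower F K K'] [IsScalarTower C K K'] [CFF C K']
      [FiniteDimensional K K'], ∃ s : Sides C F F1 F2 W K', (∃ R, s.inn R) ∧
        ∀ (σ : K' ≃ₐ[K] K') (P : Plk C K'), s.inn P → s.inn (conj C σ P) ∧
          s.vp (conj C σ P) = ptMap F F1 (σ.symm.toAlgHom.restrictScalars F) (s.vp P)) :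
    Moves F F1 F2 W n (divSub C K n) := by
  intro K' _ _ _ _ _ _ σ
  let i1 : Algebra C K' := ((algebraMap F K').comp (algebraMap C F)).toAlgebra
  have t1 : IsScalarTower C F K' := IsScalarTower.of_algebraMap_eq' rfl
  have t2 : IsScalarTower C K K' := by
    refine IsScalarTower.of_algebraMap_eq fun c => ?_
    rw [IsScalarTower.algebraMap_apply C F K', IsScalarTower.algebraMap_apply C F K,
      ← IsScalarTower.algebraMap_apply F K K']
  have c1 : CFF C K' := cff_of_finite (K := K)
  obtain ⟨s, ⟨R, hR⟩, heq⟩ := hS K'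
  set R' : Plk C K' := conj C σ.symm R with hR'
  obtain ⟨hR1, hR2⟩ := heq σ.symm R hR
  have hdg : dg (Finsupp.single R' (1 : ℤ) - Finsupp.single R 1) = 0 := by
    rw [map_sub, dg_sgl, dg_sgl, sub_self]
  obtain ⟨g, E, hg0, -, hg⟩ := exists_dv (k := C) (F := K') (n := n) hn hdg
  refine ⟨Units.mk0 g hg0, s.vp R, ?_, ?_, ?_⟩
  · rw [mem_divSub]
    intro P
    rw [Units.coe_map]
    change (n : ℤ) ∣ ord P (Algebra.norm K g)
    rw [← dv_apply, dv_norm, hg, map_sub, map_sub, push_single, push_single, hR', down_conj,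
      sub_self, zero_sub, map_nsmul, Finsupp.neg_apply, Finsupp.smul_apply, nsmul_eq_mul]
    exact (dvd_neg).2 (dvd_mul_right _ _)
  · intro v
    rw [Units.val_mk0, s.sumV g hg0 v, hg, map_sub, map_sub, degAt_single, degAt_single,
      map_nsmul, hR2, nsmul_eq_mul]
    have e1 : (s.inn R' ∧ ptMap F F1 (σ.symm.symm.toAlgHom.restrictScalars F) (s.vp R) = v) ↔
        v = ptMap F F1 (σ.toAlgHom.restrictScalars F) (s.vp R) := by
      rw [AlgEquiv.symm_symm]
      exact ⟨fun h => h.2.symm, fun h => ⟨hR1, h.symm⟩⟩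
    have e2 : (s.inn R ∧ s.vp R = v) ↔ v = s.vp R :=
      ⟨fun h => h.2.symm, fun h => ⟨hR, h.symm⟩⟩
    have e3 : ∀ (p q : Prop) (dp : Decidable p) (dq : Decidable q), (p ↔ q) →
        (@ite ℤ p dp 1 0) = (@ite ℤ q dq 1 0) := by
      intro p q dp dq h
      by_cases hp : p
      · rw [if_pos hp, if_pos (h.1 hp)]
      · rw [if_neg hp, if_neg (fun hq => hp (h.2 hq))]
    rw [e3 _ _ _ (Classical.propDecidable _) e1, e3 _ _ _ (Classical.propDecidable _) e2]
    refine ⟨- degAt (fun P => s.inn P ∧ s.vp P = v) E, ?_⟩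
    ring
  · intro d
    rw [Units.val_mk0, s.sumD g hg0 d, hg, map_sub, map_sub, degAt_single, degAt_single,
      map_nsmul, nsmul_eq_mul, if_neg (fun h => h.1 hR1), if_neg (fun h => h.1 hR)]
    refine ⟨degAt (fun P => ¬ s.inn P ∧ s.dp P = d) E, ?_⟩
    ring

end P025H613
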