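import Vale.Agent.P025.R2.H613.Alg
import Vale.Agent.P025.R2.H544.Defs

/-!
# P025 G-WIND: windings at the edges, total winding, winding of a norm
-/

open TensorProduct P025H544

namespace P025H613

/-- a homomorphism from the units of a field to the integers, as a function -/
structure IsWind {F0 : Type*} [Field F0] (W : F0 → ℤ) : Prop where
  mul : ∀ x y, x ≠ 0 → y ≠ 0 → W (x * y) = W x + W y

namespace IsWind

variable {F0 : Type*} [Field F0] {W : F0 → ℤ}

theorem one (hW : IsWind W) : W 1 = 0 := by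
  have := hW.mul 1 1 one_ne_zero one_ne_zero
  rw [mul_one] at this
  omega

theorem prod (hW : IsWind W) {ι : Type*} (s : Finset ι) (f : ι → F0) (h : ∀ i ∈ s, f i ≠ 0) :
    W (∏ i ∈ s, f i) = ∑ i ∈ s, W (f i) := by
  classical
  induction s using Finset.induction_on with
  | empty => simp [hW.one]
  | insert a s ha ih =>
    rw [Finset.prod_insert ha, Finset.sum_insert ha, hW.mul, ih]
    · exact fun i hi => h i (Finset.mem_insert_of_mem hi)
    · exact h a (Finset.mem_insert_self _ _)
    · exact Finset.prod_ne_zero_iff.2 fun i hi => h i (Finset.mem_insert_of_mem hi)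

theorem inv (hW : IsWind W) {x : F0} (hx : x ≠ 0) : W x⁻¹ = - W x := by
  have := hW.mul x x⁻¹ hx (inv_ne_zero hx)
  rw [mul_inv_cancel₀ hx, hW.one] at this
  omega

theorem pow (hW : IsWind W) {x : F0} (hx : x ≠ 0) (n : ℕ) : W (x ^ n) = n * W x := by
  induction n with
  | zero => simp [hW.one]
  | succ n ih => rw [pow_succ, hW.mul _ _ (pow_ne_zero _ hx) hx, ih]; push_cast; ring

end IsWind

section wd

variable {F0 A : Type*} [Field F0] [CommRing A] [Algebra F0 A]

/-- winding at the point w of a finite algebra -/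
noncomputable def wd (W : F0 → ℤ) (w : PrimeSpectrum A) (x : A) : ℤ :=
  W (Algebra.norm F0 (Ideal.Quotient.mk w.asIdeal x))

theorem norm_mk_ne_zero [Module.Finite F0 A] (w : PrimeSpectrum A) {x : A} (hx : IsUnit x) :
    Algebra.norm F0 (Ideal.Quotient.mk w.asIdeal x) ≠ 0 :=
  (IsUnit.map (Algebra.norm F0) (IsUnit.map (Ideal.Quotient.mk w.asIdeal) hx)).ne_zero

variable {W : F0 → ℤ}

theorem wd_mul [Module.Finite F0 A] (hW : IsWind W) (w : PrimeSpectrum A) {x y : A}
    (hx : IsUnit x) (hy : IsUnit y) : wd W w (x * y) = wd W w x + wd W w y := by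
  rw [wd, map_mul, map_mul, hW.mul _ _ (norm_mk_ne_zero w hx) (norm_mk_ne_zero w hy)]
  rfl

theorem wd_one [Module.Finite F0 A] (hW : IsWind W) (w : PrimeSpectrum A) :
    wd W w (1 : A) = 0 := by
  rw [wd, map_one, map_one, hW.one]

theorem wd_pow [Module.Finite F0 A] (hW : IsWind W) (w : PrimeSpectrum A) {x : A}
    (hx : IsUnit x) (n : ℕ) : wd W w (x ^ n) = n * wd W w x := by
  rw [wd, map_pow, map_pow, hW.pow (norm_mk_ne_zero w hx)]
  rfl

theorem wd_prod [Module.Finite F0 A] (hW : IsWind W) (w : PrimeSpectrum A) {ι : Type*}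
    (s : Finset ι) (f : ι → A) (h : ∀ i ∈ s, IsUnit (f i)) :
    wd W w (∏ i ∈ s, f i) = ∑ i ∈ s, wd W w (f i) := by
  rw [wd, map_prod, map_prod, hW.prod]
  · rfl
  · exact fun i hi => norm_mk_ne_zero w (h i hi)

theorem total [Module.Finite F0 A] [IsReduced A] [Fintype (PrimeSpectrum A)] (hW : IsWind W)
    {x : A} (hx : IsUnit x) : W (Algebra.norm F0 x) = ∑ w : PrimeSpectrum A, wd W w x := by
  rw [norm_eq_prod, hW.prod]
  · rfl
  · exact fun w _ => norm_mk_ne_zero w hx

theorem wd_mix_one {R : Type*} [CommRing R] [Algebra R A] (e : R) (x : A) (w : PrimeSpectrum A)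
    (h : Ideal.Quotient.mk w.asIdeal (algebraMap R A e) = 1) : wd W w (mix e x) = wd W w x := by
  rw [wd, mk_mix_of_one e x _ h]
  rfl

theorem wd_mix_zero [Module.Finite F0 A] (hW : IsWind W) {R : Type*} [CommRing R] [Algebra R A]
    (e : R) (x : A) (w : PrimeSpectrum A)
    (h : Ideal.Quotient.mk w.asIdeal (algebraMap R A e) = 0) : wd W w (mix e x) = 0 := by
  rw [wd, mk_mix_of_zero e x _ h, map_one, hW.one]

end wd

end P025H613
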