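import Mathlib

/-!
# P025, windings: algebra of norms over the points of a finite algebra
-/

namespace P025H613

open scoped TensorProduct

section norm

variable {k A : Type*} [Field k] [CommRing A] [Algebra k A] [Module.Finite k A]

theorem norm_pi {ι : Type*} [Fintype ι] (B : ι → Type*) [∀ i, CommRing (B i)]
    [∀ i, Algebra k (B i)] [∀ i, Module.Finite k (B i)] (x : ∀ i, B i) :
    Algebra.norm k x = ∏ i, Algebra.norm k (x i) := by
  classical
  let lo : LinearOrder ι := linearOrderOfSTO WellOrderingRel
  let b : ∀ i, Module.Basis _ k (B i) := fun i => Module.Free.chooseBasis k (B i)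
  have h0 : ∀ (p q : Σ i, Module.Free.ChooseBasisIndex k (B i)),
      Algebra.leftMulMatrix (Pi.basis b) x p q =
        if h : p.1 = q.1 then Algebra.leftMulMatrix (b q.1) (x q.1) (h ▸ p.2) q.2 else 0 := by
    rintro ⟨i, a⟩ ⟨j, c⟩
    rw [Algebra.leftMulMatrix_eq_repr_mul, Pi.basis_repr, Pi.basis_apply]
    by_cases hij : i = j
    · subst hij
      simp [Algebra.leftMulMatrix_eq_repr_mul]
    · simp [hij]
  have h1 : (Algebra.leftMulMatrix (Pi.basis b) x).BlockTriangular Sigma.fst := by
    rintro ⟨i, a⟩ ⟨j, c⟩ hij
    rw [h0, dif_neg]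
    exact ne_of_gt hij
  rw [Algebra.norm_eq_matrix_det (Pi.basis b), h1.det_fintype]
  refine Finset.prod_congr rfl fun i _ => ?_
  rw [Algebra.norm_eq_matrix_det (b i)]
  let e : Module.Free.ChooseBasisIndex k (B i) ≃
      {p : Σ i, Module.Free.ChooseBasisIndex k (B i) // p.1 = i} :=
    { toFun := fun a => ⟨⟨i, a⟩, rfl⟩
      invFun := fun p => p.2 ▸ p.1.2
      left_inv := fun a => rfl
      right_inv := by
        rintro ⟨⟨j, a⟩, h⟩
        subst h
        rfl }
  rw [← Matrix.det_submatrix_equiv_self e]
  congr 1
  ext a c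
  simp [e, Matrix.toSquareBlock, Matrix.toSquareBlockProp, h0]

/-- The norm of a finite reduced algebra over a field is the product of the norms at its points. -/
theorem norm_eq_prod [IsReduced A] [Fintype (PrimeSpectrum A)] (x : A) :
    Algebra.norm k x =
      ∏ m : PrimeSpectrum A, Algebra.norm k (Ideal.Quotient.mk m.asIdeal x) := by
  classical
  have : IsArtinianRing A := IsArtinianRing.of_finite k A
  let i1 : Fintype (MaximalSpectrum A) := Fintype.ofFinite _
  rw [← Algebra.norm_eq_of_algEquiv ((IsArtinianRing.equivPi A).restrictScalars k) x,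
    norm_pi]
  exact (Fintype.prod_equiv (IsArtinianRing.primeSpectrumEquivMaximalSpectrum (R := A)) _ _
    (fun m => rfl)).symm

end norm

section baseChange

theorem norm_one_tmul {R A B : Type*} [CommRing R] [CommRing A] [Algebra R A] [CommRing B]
    [Algebra R B] [Module.Free R B] [Module.Finite R B] (x : B) :
    Algebra.norm A (1 ⊗ₜ[R] x : A ⊗[R] B) = algebraMap R A (Algebra.norm R x) := by
  rw [Algebra.norm_apply, Algebra.norm_apply, ← LinearMap.det_baseChange,
    ← Algebra.baseChange_lmul]

theorem norm_map {F F1 F0 K : Type*} [Field F] [Field F1] [Field F0] [Algebra F F1]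
    [Algebra F F0] [Algebra F1 F0] [IsScalarTower F F1 F0] [CommRing K] [Algebra F K]
    [Module.Finite F K] (x : F1 ⊗[F] K) :
    Algebra.norm F0 (Algebra.TensorProduct.map (IsScalarTower.toAlgHom F F1 F0)
      (AlgHom.id F K) x) = algebraMap F1 F0 (Algebra.norm F1 x) := by
  rw [← norm_one_tmul (A := F0) x,
    ← Algebra.norm_eq_of_algEquiv (Algebra.TensorProduct.cancelBaseChange F F1 F0 F0 K)]
  congr 1
  induction x with
  | zero => simp
  | add x y hx hy => rw [map_add, hx, hy, TensorProduct.tmul_add, map_add]
  | tmul a b => simp [Algebra.algebraMap_eq_smul_one]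

end baseChange

section idem

/-- the element which is x where e = 1 and 1 where e = 0 -/
def mix {R S : Type*} [CommRing R] [CommRing S] [Algebra R S] (e : R) (x : S) : S :=
  algebraMap R S e * x + (1 - algebraMap R S e)

theorem norm_mix {R S : Type*} [CommRing R] [CommRing S] [Algebra R S] [Module.Free R S]
    [Module.Finite R S] {e : R} (he : e * e = e) (x : S) :
    Algebra.norm R (mix e x) = mix e (Algebra.norm R x) := by
  classical
  let b := Module.Free.chooseBasis R S
  have key : ∀ I : Ideal R, (e ∈ I ∨ 1 - e ∈ I) →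
      Ideal.Quotient.mk I (Algebra.norm R (mix e x)) =
        Ideal.Quotient.mk I (mix e (Algebra.norm R x)) := by
    intro I hI
    rw [Algebra.norm_eq_matrix_det b, Algebra.norm_eq_matrix_det b, RingHom.map_det]
    rcases hI with h | h
    · have h1 : Ideal.Quotient.mk I e = 0 := Ideal.Quotient.eq_zero_iff_mem.2 h
      have h2 : (Ideal.Quotient.mk I).mapMatrix (Algebra.leftMulMatrix b (mix e x)) = 1 := by
        have : Algebra.leftMulMatrix b (mix e x) =
            e • Algebra.leftMulMatrix b x + (1 - e) • (1 : Matrix _ _ R) := by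
          rw [mix, map_add, map_mul, map_sub, map_one, AlgHom.commutes]
          ext i j
          simp [Matrix.one_apply, Algebra.algebraMap_eq_smul_one, sub_smul]
        rw [this]
        ext i j
        by_cases hij : i = j <;> simp [h1, Matrix.one_apply, hij]
      rw [h2, Matrix.det_one, mix]
      simp [h1]
    · have h1 : Ideal.Quotient.mk I e = 1 := by
        have := Ideal.Quotient.eq_zero_iff_mem.2 h
        rw [map_sub, map_one, sub_eq_zero] at this
        exact this.symm
      have h2 : (Ideal.Quotient.mk I).mapMatrix (Algebra.leftMulMatrix b (mix e x)) =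
          (Ideal.Quotient.mk I).mapMatrix (Algebra.leftMulMatrix b x) := by
        have : Algebra.leftMulMatrix b (mix e x) =
            e • Algebra.leftMulMatrix b x + (1 - e) • (1 : Matrix _ _ R) := by
          rw [mix, map_add, map_mul, map_sub, map_one, AlgHom.commutes]
          ext i j
          simp [Matrix.one_apply, Algebra.algebraMap_eq_smul_one, sub_smul]
        rw [this]
        ext i j
        simp [h1]
      rw [h2, ← RingHom.map_det, mix]
      simp [h1]
  have h1 := key (Ideal.span {e}) (Or.inl (Ideal.mem_span_singleton_self e))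
  have h2 := key (Ideal.span {1 - e}) (Or.inr (Ideal.mem_span_singleton_self _))
  rw [Ideal.Quotient.eq, Ideal.mem_span_singleton'] at h1 h2
  obtain ⟨a, ha⟩ := h1
  obtain ⟨c, hc⟩ := h2
  rw [← sub_eq_zero]
  set d := Algebra.norm R (mix e x) - mix e (Algebra.norm R x)
  have h3 : (1 - e) * d = 0 := by
    rw [← ha]; linear_combination (-a) * he
  have h4 : e * d = 0 := by
    rw [← hc]; linear_combination (-c) * he
  linear_combination h3 + h4

theorem mk_mix_of_one {R S : Type*} [CommRing R] [CommRing S] [Algebra R S] (e : R) (x : S)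
    (I : Ideal S) (h : Ideal.Quotient.mk I (algebraMap R S e) = 1) :
    Ideal.Quotient.mk I (mix e x) = Ideal.Quotient.mk I x := by
  simp [mix, h]

theorem mk_mix_of_zero {R S : Type*} [CommRing R] [CommRing S] [Algebra R S] (e : R) (x : S)
    (I : Ideal S) (h : Ideal.Quotient.mk I (algebraMap R S e) = 0) :
    Ideal.Quotient.mk I (mix e x) = 1 := by
  simp [mix, h]

theorem isUnit_mix {R S : Type*} [CommRing R] [CommRing S] [Algebra R S] {e : R}
    (he : e * e = e) {x : S} (hx : IsUnit x) : IsUnit (mix e x) := by
  obtain ⟨u, rfl⟩ := hx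
  have h : algebraMap R S e * algebraMap R S e = algebraMap R S e := by
    rw [← map_mul, he]
  refine IsUnit.of_mul_eq_one (mix e (↑u⁻¹ : S)) ?_
  have h2 : (u : S) * ↑u⁻¹ = 1 := u.mul_inv
  simp only [mix]
  linear_combination (algebraMap R S e * algebraMap R S e) * h2 + (2 - u - ↑u⁻¹ : S) * h

/-- the idempotent of a point of a reduced artinian ring -/
noncomputable def idm {A : Type*} [CommRing A] [IsArtinianRing A] [IsReduced A]
    (v : PrimeSpectrum A) : A := by
  classical
  exact (IsArtinianRing.equivPi A).symm
    (Pi.single (IsArtinianRing.primeSpectrumEquivMaximalSpectrum v) 1)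

theorem mk_idm_self {A : Type*} [CommRing A] [IsArtinianRing A] [IsReduced A]
    (v : PrimeSpectrum A) : Ideal.Quotient.mk v.asIdeal (idm v) = 1 := by
  classical
  have h : IsArtinianRing.equivPi A (idm v) =
      Pi.single (IsArtinianRing.primeSpectrumEquivMaximalSpectrum v) 1 := by
    rw [idm, AlgEquiv.apply_symm_apply]
  have h2 := congrFun h (IsArtinianRing.primeSpectrumEquivMaximalSpectrum v)
  rw [Pi.single_eq_same] at h2
  exact h2

theorem mk_idm_of_ne {A : Type*} [CommRing A] [IsArtinianRing A] [IsReduced A]
    {v w : PrimeSpectrum A} (hw : w ≠ v) : Ideal.Quotient.mk w.asIdeal (idm v) = 0 := by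
  classical
  have h : IsArtinianRing.equivPi A (idm v) =
      Pi.single (IsArtinianRing.primeSpectrumEquivMaximalSpectrum v) 1 := by
    rw [idm, AlgEquiv.apply_symm_apply]
  have h2 := congrFun h (IsArtinianRing.primeSpectrumEquivMaximalSpectrum w)
  rw [Pi.single_eq_of_ne] at h2
  · exact h2
  · exact fun h3 => hw (IsArtinianRing.primeSpectrumEquivMaximalSpectrum.injective h3)

theorem ext_points {A : Type*} [CommRing A] [IsReduced A] {x y : A}
    (h : ∀ v : PrimeSpectrum A, Ideal.Quotient.mk v.asIdeal x = Ideal.Quotient.mk v.asIdeal y) :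
    x = y := by
  rw [← sub_eq_zero]
  have : x - y ∈ nilradical A := by
    rw [nilradical_eq_sInf, Ideal.mem_sInf]
    intro I hI
    have h1 := h ⟨I, hI⟩
    rwa [Ideal.Quotient.eq] at h1
  simpa [nilradical_eq_zero] using this

theorem idm_mul_self {A : Type*} [CommRing A] [IsArtinianRing A] [IsReduced A]
    (v : PrimeSpectrum A) : idm v * idm v = idm v := by
  classical
  refine ext_points fun w => ?_
  rw [map_mul]
  by_cases h : w = v
  · subst h; rw [mk_idm_self, one_mul]
  · rw [mk_idm_of_ne h, zero_mul]

theorem isUnit_of_points {A : Type*} [CommRing A] {x : A}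
    (h : ∀ v : PrimeSpectrum A, x ∉ v.asIdeal) : IsUnit x := by
  by_contra hx
  obtain ⟨I, hI, hxI⟩ := exists_max_ideal_of_mem_nonunits hx
  exact h ⟨I, hI.isPrime⟩ hxI

end idem

end P025H613
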