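import Vale.Agent.P025.R2.H613.Sums

/-!
# P025 G-WIND (4.4): core of the pebble lemma
-/

open TensorProduct P025H544

namespace P025H613

section val

variable {F A K : Type*} [Field F] [Field A] [Algebra F A] [Field K] [Algebra F K]

theorem mk_algebraMap_injective (v : Pt F A K) :
    Function.Injective (fun c : F => Ideal.Quotient.mk v.asIdeal (algebraMap F (A ⊗[F] K) c)) := by
  have : Nontrivial ((A ⊗[F] K) ⧸ v.asIdeal) := Ideal.Quotient.nontrivial_iff.2 v.isPrime.ne_top
  exact ((Ideal.Quotient.mk v.asIdeal).comp (algebraMap F (A ⊗[F] K))).injective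

open Classical in
/-- the value in F of an n-th root of unity at a point -/
noncomputable def val (v : Pt F A K) (z : A ⊗[F] K) : F :=
  if h : ∃ c : F, Ideal.Quotient.mk v.asIdeal z =
    Ideal.Quotient.mk v.asIdeal (algebraMap F (A ⊗[F] K) c) then h.choose else 1

theorem val_eq {v : Pt F A K} {z : A ⊗[F] K} {c : F} (h : Ideal.Quotient.mk v.asIdeal z =
    Ideal.Quotient.mk v.asIdeal (algebraMap F (A ⊗[F] K) c)) : val v z = c := by
  have h1 : ∃ c : F, Ideal.Quotient.mk v.asIdeal z =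
    Ideal.Quotient.mk v.asIdeal (algebraMap F (A ⊗[F] K) c) := ⟨c, h⟩
  rw [val, dif_pos h1]
  exact mk_algebraMap_injective v (h1.choose_spec.symm.trans h)

variable {n : ℕ} [NeZero n] {ζ : F} (hζ : IsPrimitiveRoot ζ n)

include hζ in
theorem exists_val (v : Pt F A K) {z : A ⊗[F] K} (hz : z ^ n = 1) :
    ∃ c : F, c ^ n = 1 ∧ Ideal.Quotient.mk v.asIdeal z =
      Ideal.Quotient.mk v.asIdeal (algebraMap F (A ⊗[F] K) c) := by
  have : Nontrivial ((A ⊗[F] K) ⧸ v.asIdeal) := Ideal.Quotient.nontrivial_iff.2 v.isPrime.ne_top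
  have hinj : Function.Injective
      ((Ideal.Quotient.mk v.asIdeal).comp (algebraMap F (A ⊗[F] K))) := RingHom.injective _
  have h1 : IsPrimitiveRoot ((Ideal.Quotient.mk v.asIdeal).comp
      (algebraMap F (A ⊗[F] K)) ζ) n := hζ.map_of_injective hinj
  have h2 : (Ideal.Quotient.mk v.asIdeal z) ^ n = 1 := by rw [← map_pow, hz, map_one]
  obtain ⟨i, _, hi⟩ := h1.eq_pow_of_pow_eq_one h2
  refine ⟨ζ ^ i, ?_, ?_⟩
  · rw [← pow_mul, mul_comm, pow_mul, hζ.pow_eq_one, one_pow]
  · rw [← hi, ← map_pow]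
    rfl

include hζ in
theorem mk_val (v : Pt F A K) {z : A ⊗[F] K} (hz : z ^ n = 1) :
    Ideal.Quotient.mk v.asIdeal z =
      Ideal.Quotient.mk v.asIdeal (algebraMap F (A ⊗[F] K) (val v z)) := by
  obtain ⟨c, _, hc⟩ := exists_val hζ v hz
  rw [val_eq hc, hc]

include hζ in
theorem val_pow (v : Pt F A K) {z : A ⊗[F] K} (hz : z ^ n = 1) : val v z ^ n = 1 := by
  obtain ⟨c, h1, hc⟩ := exists_val hζ v hz
  rw [val_eq hc, h1]

include hζ in
theorem val_mul (v : Pt F A K) {z z' : A ⊗[F] K} (hz : z ^ n = 1) (hz' : z' ^ n = 1) :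
    val v (z * z') = val v z * val v z' := by
  refine val_eq ?_
  rw [map_mul, mk_val hζ v hz, mk_val hζ v hz', map_mul, map_mul]

include hζ in
theorem val_bc {B : Type*} [Field B] [Algebra F B] [Algebra A B] [IsScalarTower F A B]
    (w : Pt F B K) {z : A ⊗[F] K} (hz : z ^ n = 1) :
    val w (bc F A B K z) = val (edge F A B K w) z := by
  refine val_eq ?_
  have h := mk_val hζ (edge F A B K w) hz
  rw [Ideal.Quotient.eq] at h ⊢
  have h1 : bc F A B K (z - algebraMap F (A ⊗[F] K) (val (edge F A B K w) z)) ∈ w.asIdeal := h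
  rwa [map_sub, AlgHom.commutes] at h1

include hζ in
theorem val_tL {K' : Type*} [Field K'] [Algebra F K'] (f : K →ₐ[F] K') (w : Pt F A K')
    {z : A ⊗[F] K} (hz : z ^ n = 1) :
    val w (tL F A f z) = val (ptMap F A f w) z := by
  refine val_eq ?_
  have h := mk_val hζ (ptMap F A f w) hz
  rw [Ideal.Quotient.eq] at h ⊢
  have h1 : tL F A f (z - algebraMap F (A ⊗[F] K) (val (ptMap F A f w) z)) ∈ w.asIdeal := h
  have h2 : tL F A f (algebraMap F (A ⊗[F] K) (val (ptMap F A f w) z)) =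
      algebraMap F (A ⊗[F] K') (val (ptMap F A f w) z) :=
    ((tL F A f).restrictScalars F).commutes _
  rwa [map_sub, h2] at h1

theorem val_algebraMap (v : Pt F A K) (c : F) : val v (algebraMap F (A ⊗[F] K) c) = c :=
  val_eq rfl

end val

section zpow

variable {F : Type*} [Field F]

theorem zpow_eq_of_dvd {c : F} {n : ℕ} [NeZero n] (hc : c ^ n = 1) {i j : ℤ}
    (h : (n : ℤ) ∣ i - j) : c ^ i = c ^ j := by
  have hc0 : c ≠ 0 := by
    rintro rfl
    rw [zero_pow (NeZero.ne n)] at hc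
    exact zero_ne_one hc
  obtain ⟨m, hm⟩ := h
  have : i = j + n * m := by omega
  rw [this, zpow_add₀ hc0, zpow_mul, zpow_natCast, hc, one_zpow, mul_one]

end zpow

end P025H613
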