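import Vale.Agent.P025.R2.H492.Canon3

/-!
# P025 G-RNS (9.1): places over a generic value (helper613)
-/

open Vale.Agent.P019P P025H492

namespace P025H613

variable {k K : Type*} [Field k] [Field K] [Algebra k K] [CFF k K] [CharZero k]

/-- For all but finitely many values `α` of `ψ` the places over `ψ = α` are unramified, do not lie
in a given finite set and are neither zeros nor poles of the form `θ' dt`. -/
theorem generic_alpha {D : Derivation k K K} (hD : D ≠ 0) {ψ : K}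
    (hψ : ∀ a : k, ψ ≠ algebraMap k K a) {θ' : K} (hθ : θ' ≠ 0) {B : Set (Plk k K)}
    (hB : B.Finite) :
    ∃ A : Set k, A.Finite ∧ ∀ α ∉ A, ∀ P : Plk k K, 0 < ord P (ψ - algebraMap k K α) →
      P ∉ B ∧ ord P (ψ - algebraMap k K α) = 1 ∧ ord P θ' = 0 ∧
        (∀ s : K, ord P s = 1 → ord P (D s) = 0) ∧
        ∀ s : K, ord P s = 1 → ord P ((ψ - algebraMap k K α) * θ') - ord P (D s) = 1 := by
  set S : Set (Plk k K) := B ∪ ({P | wd ψ P ≠ 0} ∪ ({P | ord P θ' ≠ 0} ∪ {P | ordD D P ≠ 0}))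
    with hS
  have hSf : S.Finite := hB.union ((wd_finite hψ).union ((dv_finite hθ).union (ordD_finite hD)))
  refine ⟨(fun P : Plk k K => vl P ψ) '' S, hSf.image _, fun α hα P hP => ?_⟩
  have hPα : vl P ψ = α := vl_eq_of_pos hP
  have hPS : P ∉ S := fun h => hα ⟨P, h, hPα⟩
  simp only [hS, Set.mem_union, Set.mem_ofPred_eq, not_or, not_not] at hPS
  obtain ⟨h1, h2, h3, h4⟩ := hPS
  have h0 : 0 ≤ ord P ψ := by
    have h5 : (ψ - algebraMap k K α) + algebraMap k K α ∈ Mge P 0 :=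
      add_mem (mem_Mge.2 (Or.inr hP.le)) (mem_Mge.2 (Or.inr (ord_const P α).ge))
    rw [sub_add_cancel] at h5
    rcases mem_Mge.1 h5 with h6 | h6
    · rw [h6, ord_zero]
    · exact h6
  have h5 : ord P (ψ - algebraMap k K α) = 1 := by
    rw [wd, if_pos h0, hPα] at h2
    omega
  have h6 : ∀ s : K, ord P s = 1 → ord P (D s) = 0 := fun s hs => by
    rw [← ordD_eq hD hs, h4]
  refine ⟨h1, h5, h3, h6, fun s hs => ?_⟩
  have h7 : ψ - algebraMap k K α ≠ 0 := sub_ne_zero.2 (hψ α)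
  rw [ord_mul P h7 hθ, h5, h3, h6 s hs]
  norm_num

end P025H613
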