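import Vale.Agent.P025.R2.H613.Core

/-!
# P025 G-WIND (4.4): the pebble lemma
-/

open TensorProduct P025H544

namespace P025H613

section zpow

variable {F : Type*} [Field F]

theorem zpow_sum {ι : Type*} (s : Finset ι) {c : F} (hc : c ≠ 0) (k : ι → ℤ) :
    c ^ (∑ i ∈ s, k i) = ∏ i ∈ s, c ^ k i := by
  classical
  induction s using Finset.induction_on with
  | empty => simp
  | insert a s ha ih => rw [Finset.sum_insert ha, Finset.prod_insert ha, zpow_add₀ hc, ih]

/-- product over the points of the source = product over the points of the target -/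
theorem prod_fiber {X Y : Type*} [Fintype X] [Fintype Y] [DecidableEq Y] (f : X → Y) (c : Y → F)
    (hc : ∀ y, c y ≠ 0) (k : X → ℤ) :
    ∏ x, c (f x) ^ k x = ∏ y, c y ^ (∑ x with f x = y, k x) := by
  rw [← Finset.prod_fiberwise Finset.univ f]
  refine Finset.prod_congr rfl fun y _ => ?_
  rw [zpow_sum _ (hc y)]
  refine Finset.prod_congr rfl fun x hx => ?_
  rw [Finset.mem_filter] at hx
  rw [hx.2]

end zpow

theorem bc_tL (F A B : Type*) {L L' : Type*} [CommRing F] [CommRing A] [CommRing B] [CommRing L]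
    [CommRing L'] [Algebra F A] [Algebra F B] [Algebra A B] [IsScalarTower F A B] [Algebra F L]
    [Algebra F L'] (f : L →ₐ[F] L') (z : A ⊗[F] L) :
    bc F A B L' (tL F A f z) = tL F B f (bc F A B L z) := by
  induction z with
  | zero => simp
  | add x y hx hy => rw [map_add, map_add, map_add, map_add, hx, hy]
  | tmul a b => simp

theorem tL_comp (F A : Type*) {L L' L'' : Type*} [CommRing F] [CommRing A] [CommRing L]
    [CommRing L'] [CommRing L''] [Algebra F A] [Algebra F L] [Algebra F L'] [Algebra F L'']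
    (f : L →ₐ[F] L') (g : L' →ₐ[F] L'') (z : A ⊗[F] L) :
    tL F A g (tL F A f z) = tL F A (g.comp f) z := by
  induction z with
  | zero => simp
  | add x y hx hy => rw [map_add, map_add, map_add, hx, hy]
  | tmul a b => simp

section core

variable {F K K' : Type*} [Field F] [Field K] [Algebra F K] [Field K'] [Algebra F K']
  [Algebra K K'] [IsScalarTower F K K'] {n : ℕ} [NeZero n] {ζ : F} (hζ : IsPrimitiveRoot ζ n)

/-- on one side: the n-th root of unity y/a and its values -/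
theorem side (A : Type*) [Field A] [Algebra F A] {x : K} (a : (A ⊗[F] K)ˣ)
    (ha : (1 : A) ⊗ₜ[F] x = (a : A ⊗[F] K) ^ n) {y : K'}
    (hyx : y ^ n = algebraMap K K' x) :
    ∃ z : A ⊗[F] K', z ^ n = 1 ∧ tL F A (IsScalarTower.toAlgHom F K K') a * z = 1 ⊗ₜ y := by
  set a' : (A ⊗[F] K')ˣ := Units.map (tL F A (IsScalarTower.toAlgHom F K K')).toMonoidHom a with ha'
  have h1 : (a' : A ⊗[F] K') = tL F A (IsScalarTower.toAlgHom F K K') a := rfl
  have h2 : (a' : A ⊗[F] K') ^ n = (1 ⊗ₜ y) ^ n := by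
    rw [h1, ← map_pow, ← ha, tL_tmul, Algebra.TensorProduct.tmul_pow, one_pow, hyx]
    rfl
  refine ⟨(↑a'⁻¹ : A ⊗[F] K') * (1 ⊗ₜ[F] y), ?_, ?_⟩
  · rw [mul_pow, ← h2, ← mul_pow, Units.inv_mul, one_pow]
  · rw [← h1, ← mul_assoc, Units.mul_inv, one_mul]

include hζ in
theorem side_val (A : Type*) [Field A] [Algebra F A] (a : (A ⊗[F] K)ˣ) {y : K'}
    {z : A ⊗[F] K'} (hz : z ^ n = 1)
    (hza : tL F A (IsScalarTower.toAlgHom F K K') a * z = 1 ⊗ₜ y) (σ : K' ≃ₐ[K] K') {c : F}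
    (hc : c ^ n = 1) (hσ : σ y = algebraMap F K' c * y) (v : Pt F A K') :
    val (ptMap F A (σ.toAlgHom.restrictScalars F) v) z = c * val v z := by
  set a' : (A ⊗[F] K')ˣ := Units.map (tL F A (IsScalarTower.toAlgHom F K K')).toMonoidHom a with ha'
  have h1 : (a' : A ⊗[F] K') = tL F A (IsScalarTower.toAlgHom F K K') a := rfl
  rw [← val_tL hζ _ _ hz]
  have h2 : tL F A (σ.toAlgHom.restrictScalars F) z = algebraMap F _ c * z := by
    rw [← a'.mul_right_inj]
    have h3 : tL F A (σ.toAlgHom.restrictScalars F) (a' : A ⊗[F] K') = a' := by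
      rw [h1, tL_comp]
      congr 2
      ext t
      simp
    calc (a' : A ⊗[F] K') * tL F A (σ.toAlgHom.restrictScalars F) z
        = tL F A (σ.toAlgHom.restrictScalars F) (a' * z) := by rw [map_mul, h3]
      _ = 1 ⊗ₜ (σ y) := by
          rw [h1, hza, tL_tmul]
          rfl
      _ = algebraMap F _ c * (1 ⊗ₜ y) := by
          rw [hσ, ← Algebra.smul_def, Algebra.algebraMap_eq_smul_one, TensorProduct.tmul_smul,
            Algebra.smul_mul_assoc, one_mul]
      _ = a' * (algebraMap F _ c * z) := by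
          rw [← hza, h1]; ring
  rw [h2, val_mul hζ, val_algebraMap]
  · rw [← map_pow, hc, map_one]
  · exact hz

variable {F1 F2 F0 : Type*} [Field F1] [Field F2] [Field F0] [Algebra F F1] [Algebra F F2]
  [Algebra F F0] [Algebra F1 F0] [Algebra F2 F0] [IsScalarTower F F1 F0] [IsScalarTower F F2 F0]
  [FiniteDimensional F K] [Algebra.IsSeparable F K] [FiniteDimensional F K']
  [Algebra.IsSeparable F K'] {W : F0 → ℤ}

open Classical in
include hζ in
/-- core of the pebble lemma: one element g of the Kummer cover whose boundary modulo n is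
(conjugate of v0) - v0 -/
theorem core (hW : IsWind W) [Fintype (Pt F F0 K)]
    (γ : F0 ⊗[F] K) (hγ : γ ^ n = 1) (x : K) (a : (F1 ⊗[F] K)ˣ) (b : (F2 ⊗[F] K)ˣ)
    (hab : bc F F1 F0 K a = γ * bc F F2 F0 K b)
    (ha : (1 : F1) ⊗ₜ[F] x = (a : F1 ⊗[F] K) ^ n) (hb : (1 : F2) ⊗ₜ[F] x = (b : F2 ⊗[F] K) ^ n)
    (y : K') (hyx : y ^ n = algebraMap K K' x) (σ : K' ≃ₐ[K] K') (c : F)
    (hc : c ^ n = 1) (hσ : σ y = algebraMap F K' c * y) (g : K') (hg : g ≠ 0) (v0 : Pt F F1 K')
    (hV : ∀ v : Pt F F1 K', (n : ℤ) ∣ wd (fun t => W (algebraMap F1 F0 t)) v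
      (1 ⊗ₜ g : F1 ⊗[F] K') - ((if v = ptMap F F1 (σ.toAlgHom.restrictScalars F) v0 then 1 else 0)
        - (if v = v0 then 1 else 0)))
    (hD : ∀ d : Pt F F2 K', (n : ℤ) ∣ wd (fun t => W (algebraMap F2 F0 t)) d
      (1 ⊗ₜ g : F2 ⊗[F] K')) :
    (∏ w : Pt F F0 K, val w γ ^ wd W w (1 ⊗ₜ Algebra.norm K g : F0 ⊗[F] K)) * c = 1 := by
  let i1 : Fintype (Pt F F0 K') := Fintype.ofFinite _
  let i2 : Fintype (Pt F F1 K') := Fintype.ofFinite _
  let i3 : Fintype (Pt F F2 K') := Fintype.ofFinite _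
  have hn : n ≠ 0 := NeZero.ne n
  have hne : ∀ {t : F}, t ^ n = 1 → t ≠ 0 := by
    rintro t ht rfl
    rw [zero_pow hn] at ht
    exact zero_ne_one ht
  obtain ⟨z1, hz1, hz1a⟩ := side F1 a ha hyx
  obtain ⟨z2, hz2, hz2b⟩ := side F2 b hb hyx
  -- relation on the edges
  have hrel : tL F F0 (IsScalarTower.toAlgHom F K K') γ * bc F F1 F0 K' z1 =
      bc F F2 F0 K' z2 := by
    have e1 := congrArg (bc F F1 F0 K') hz1a
    have e2 := congrArg (bc F F2 F0 K') hz2b
    rw [map_mul, bc_tL, hab, map_mul, bc_tmul, map_one] at e1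
    rw [map_mul, bc_tL, bc_tmul, map_one] at e2
    have hbu : IsUnit (tL F F0 (IsScalarTower.toAlgHom F K K') (bc F F2 F0 K b)) :=
      (b.isUnit.map (bc F F2 F0 K)).map (tL F F0 (IsScalarTower.toAlgHom F K K'))
    refine hbu.mul_left_cancel ?_
    rw [e2, ← e1]
    ring
  have hrel2 : ∀ w : Pt F F0 K', val (ptMap F F0 (IsScalarTower.toAlgHom F K K') w) γ *
      val (edge F F1 F0 K' w) z1 = val (edge F F2 F0 K' w) z2 := by
    intro w
    rw [← val_tL hζ _ _ hγ, ← val_bc hζ w hz1, ← val_bc hζ w hz2, ← hrel, val_mul hζ]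
    · rw [← map_pow, hγ, map_one]
    · rw [← map_pow, hz1, map_one]
  -- first product
  have s1 : ∏ w : Pt F F0 K, val w γ ^ wd W w (1 ⊗ₜ Algebra.norm K g : F0 ⊗[F] K) =
      ∏ w : Pt F F0 K', val (ptMap F F0 (IsScalarTower.toAlgHom F K K') w) γ ^
        wd W w (1 ⊗ₜ g : F0 ⊗[F] K') := by
    rw [prod_fiber (ptMap F F0 (IsScalarTower.toAlgHom F K K')) (fun w => val w γ)
      (fun w => hne (val_pow hζ w hγ))]
    refine Finset.prod_congr rfl fun w _ => ?_
    rw [wd_norm hW w hg]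
  have s2 : ∏ w : Pt F F0 K', val (edge F F1 F0 K' w) z1 ^ wd W w (1 ⊗ₜ g : F0 ⊗[F] K') = c := by
    rw [prod_fiber (edge F F1 F0 K') (fun v => val v z1) (fun v => hne (val_pow hζ v hz1))]
    have t1 : ∀ v : Pt F F1 K', val v z1 ^ (∑ w : Pt F F0 K' with edge F F1 F0 K' w = v,
        wd W w (1 ⊗ₜ g : F0 ⊗[F] K')) =
        (if v = ptMap F F1 (σ.toAlgHom.restrictScalars F) v0 then
          val (ptMap F F1 (σ.toAlgHom.restrictScalars F) v0) z1 else 1) *
        (if v = v0 then (val v0 z1)⁻¹ else 1) := by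
      intro v
      have h1 := sum_edge (F := F) hW v (isUnit_one_tmul (A := F1) hg)
      rw [bc_tmul, map_one] at h1
      rw [h1]
      have h2 : W (algebraMap F1 F0 (Algebra.norm F1 (Ideal.Quotient.mk v.asIdeal
          (1 ⊗ₜ g : F1 ⊗[F] K')))) = wd (fun t => W (algebraMap F1 F0 t)) v
          (1 ⊗ₜ g : F1 ⊗[F] K') := rfl
      rw [h2, zpow_eq_of_dvd (val_pow hζ v hz1) (hV v), zpow_sub₀ (hne (val_pow hζ v hz1))]
      have h3 : ∀ P : Prop, val v z1 ^ (if P then (1 : ℤ) else 0) = if P then val v z1 else 1 := by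
        intro P
        split_ifs <;> simp
      rw [h3, h3, div_eq_mul_inv]
      congr 1
      · split_ifs with h
        · rw [h]
        · rfl
      · split_ifs with h
        · rw [h]
        · rw [inv_one]
    rw [Finset.prod_congr rfl fun v _ => t1 v, Finset.prod_mul_distrib, Finset.prod_ite_eq',
      Finset.prod_ite_eq', if_pos (Finset.mem_univ _), if_pos (Finset.mem_univ _),
      side_val hζ F1 a hz1 hz1a σ hc hσ, mul_assoc, mul_inv_cancel₀ (hne (val_pow hζ v0 hz1)),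
      mul_one]
  have s3 : ∏ w : Pt F F0 K', val (edge F F2 F0 K' w) z2 ^ wd W w (1 ⊗ₜ g : F0 ⊗[F] K') = 1 := by
    rw [prod_fiber (edge F F2 F0 K') (fun v => val v z2) (fun v => hne (val_pow hζ v hz2))]
    refine Finset.prod_eq_one fun v _ => ?_
    have h1 := sum_edge (F := F) hW v (isUnit_one_tmul (A := F2) hg)
    rw [bc_tmul, map_one] at h1
    rw [h1]
    have h2 : W (algebraMap F2 F0 (Algebra.norm F2 (Ideal.Quotient.mk v.asIdeal
          (1 ⊗ₜ g : F2 ⊗[F] K')))) = wd (fun t => W (algebraMap F2 F0 t)) v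
          (1 ⊗ₜ g : F2 ⊗[F] K') := rfl
    have h3 : (n : ℤ) ∣ wd (fun t => W (algebraMap F2 F0 t)) v (1 ⊗ₜ g : F2 ⊗[F] K') - 0 := by
      rw [sub_zero]; exact hD v
    rw [h2, zpow_eq_of_dvd (val_pow hζ v hz2) h3, zpow_zero]
  rw [s1]
  nth_rw 1 [← s2]
  rw [← Finset.prod_mul_distrib, ← s3]
  refine Finset.prod_congr rfl fun w _ => ?_
  rw [← mul_zpow, hrel2]

end core

end P025H613
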