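import Vale.Agent.P025.R2.H613.SideSum
import Vale.Agent.P025.R2.H731.Sides

/-!
# P025 G-WIND: sum formulas and moves for the two sides of the projective line, all radii
-/

open TensorProduct P025H544 Vale.Agent.P019P P025H492 P025H816 P025H731 P025H373 P025H628

namespace P025H613

universe u

section side

variable {C Fi K : Type*} [Field C] [IsAlgClosed C] [Field Fi] [Algebra (RatFunc C) Fi]
  [Field K] [Algebra C K] [Algebra (RatFunc C) K] [IsScalarTower C (RatFunc C) K]
  [FiniteDimensional (RatFunc C) K] [CFF C K]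
  {S : Set (Plk C (RatFunc C))} {wi : Plk C (RatFunc C) → Fi → ℤ}

open Classical in
/-- the vertex of a place -/
noncomputable def sp (hS : Side C Fi S wi) (P : Plk C K) : Pt (RatFunc C) Fi K :=
  if h : down (RatFunc C) P ∈ S then hS.pt P h else Classical.arbitrary _

theorem sp_eq (hS : Side C Fi S wi) {P : Plk C K} (h : down (RatFunc C) P ∈ S) :
    sp hS P = hS.pt P h := dif_pos h

theorem sp_surj (hS : Side C Fi S wi) {p : Plk C (RatFunc C)} (hp : p ∈ S)
    (v : Pt (RatFunc C) Fi K) : ∃ P : Plk C K, down (RatFunc C) P = p ∧ sp hS P = v := by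
  obtain ⟨P, h, hv⟩ := hS.exists_pt hp v
  exact ⟨P, h, (sp_eq hS (h ▸ hp)).trans hv⟩

/-- equivariance -/
theorem sp_conj (hS : Side C Fi S wi) (σ : K ≃ₐ[RatFunc C] K) (P : Plk C K)
    (h : down (RatFunc C) P ∈ S) :
    sp hS (conj C σ P) = ptMap (RatFunc C) Fi σ.symm.toAlgHom (sp hS P) := by
  have h0 : down (RatFunc C) (conj C σ P) = down (RatFunc C) P := down_conj σ P
  have h' : down (RatFunc C) (conj C σ P) ∈ S := by rwa [h0]
  rw [sp_eq hS h, sp_eq hS h']
  refine PrimeSpectrum.ext ?_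
  change nul (hS.loc (conj C σ P) h') =
    Ideal.comap (tL (RatFunc C) Fi σ.symm.toAlgHom).toRingHom (nul (hS.loc P h))
  symm
  refine LocHom.comap_nul (φ := RingHom.id Fi) (κ := (σ.symm.toAlgHom : K →+* K)) (r := 1)
    (s := 1) ?_ _ _
  refine ⟨?_, ?_, one_pos, one_pos, ?_, ?_⟩
  · intro α
    exact (tL (RatFunc C) Fi σ.symm.toAlgHom).commutes α
  · intro y
    exact tL_tmul _ _ _ _ _
  · intro α
    rw [h0, one_mul, RingHom.id_apply]
  · intro y
    rw [one_mul]
    have h2 := ord_conj σ P (σ.symm y)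
    rw [σ.apply_symm_apply] at h2
    exact h2.symm

/-- the sum formula at a vertex -/
theorem side_wd [CharZero C] (hS : Side C Fi S wi) (W' : Fi → ℤ)
    (h1 : ∀ x : Fi, x ≠ 0 → W' x = ∑ᶠ (p : Plk C (RatFunc C)) (_ : p ∈ S), wi p x)
    (g : K) (hg : g ≠ 0) (v : Pt (RatFunc C) Fi K) :
    wd W' v (1 ⊗ₜ g : Fi ⊗[RatFunc C] K) =
      degAt (fun P => down (RatFunc C) P ∈ S ∧ sp hS P = v) (dv C g) := by
  have h0 : CharZero (RatFunc C) := charZero_of_injective_algebraMap (algebraMap C _).injective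
  refine side_sum W' (fun p => p ∈ S) wi (sval wi) (sp hS) h1 ?_ ?_ ?_ g hg v
  · intro x hx p hp
    exact hS.norm hp hx
  · intro P' h x y hxy
    rw [sp_eq hS h] at hxy
    exact hS.sval_congr P' h hxy
  · intro P' h g hg
    exact hS.sval_tmul P' h hg

theorem wd_dvd [CharZero C] (hS : Side C Fi S wi) (W' : Fi → ℤ)
    (h1 : ∀ x : Fi, x ≠ 0 → W' x = ∑ᶠ (p : Plk C (RatFunc C)) (_ : p ∈ S), wi p x)
    {n : ℤ} (g : K) (hg : g ≠ 0) (hd : ∀ P : Plk C K, down (RatFunc C) P ∈ S → n ∣ ord P g)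
    (v : Pt (RatFunc C) Fi K) :
    n ∣ wd W' v (1 ⊗ₜ g : Fi ⊗[RatFunc C] K) := by
  classical
  rw [side_wd hS W' h1 g hg v, degAt_apply _ (dv C g) (dv C g).support (Finset.Subset.refl _)]
  refine Finset.dvd_sum fun P hP => ?_
  rw [dv_apply]
  exact hd P (Finset.mem_filter.1 hP).2.1

/-- divisibility of the total winding number -/
theorem dvd_norm (hS : Side C Fi S wi) (W' : Fi → ℤ)
    (h1 : ∀ x : Fi, x ≠ 0 → W' x = ∑ᶠ (p : Plk C (RatFunc C)) (_ : p ∈ S), wi p x)
    {n : ℤ} (g : K) (hg : g ≠ 0) (hd : ∀ P : Plk C K, down (RatFunc C) P ∈ S → n ∣ ord P g) :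
    n ∣ W' (algebraMap (RatFunc C) Fi (Algebra.norm (RatFunc C) g)) := by
  classical
  have h2 : Algebra.norm (RatFunc C) g ≠ 0 := by
    rw [Ne, Algebra.norm_eq_zero_iff]
    exact hg
  rw [h1 _ (by rwa [Ne, map_eq_zero])]
  refine finsum_induction (fun z : ℤ => n ∣ z) (dvd_zero _) (fun _ _ => dvd_add) fun p => ?_
  refine finsum_induction (fun z : ℤ => n ∣ z) (dvd_zero _) (fun _ _ => dvd_add) fun hp => ?_
  rw [hS.comp p hp, ord_norm]
  refine Finset.dvd_sum fun P hP => hd P ?_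
  rw [mem_over.1 hP]
  exact hp

end side

theorem degAt_congr {X : Type*} {p q : X → Prop} (h : ∀ x, p x ↔ q x) (D : X →₀ ℤ) :
    degAt p D = degAt q D := by
  have : p = q := funext fun x => propext (h x)
  rw [this]

section wind

variable {C : Type u} [NontriviallyNormedField C] [IsUltrametricDist C] [CompleteSpace C]
  [IsAlgClosed C]

variable (C) in
/-- the winding number on F0r C c -/
noncomputable def windr (c : Cˣ) (x : F0r C c) : ℤ := wind C (show F0 C from x)

theorem isWind_windr (c : Cˣ) : IsWind (windr C c) := ⟨fun _ _ hx hy => wind_mul (C := C) hx hy⟩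

theorem isWind_wind : IsWind (wind C) := ⟨fun _ _ hx hy => wind_mul (C := C) hx hy⟩

theorem windr_v1 (c : Cˣ) (x : F1r C c) (hx : x ≠ 0) :
    windr C c (algebraMap (F1r C c) (F0r C c) x) =
      ∑ᶠ (p : Plk C (RatFunc C)) (_ : p ∈ Inn C (c : C)), v1r c p x := (finsum_v1r c hx).symm

theorem windr_v2 (c : Cˣ) (x : F2r C c) (hx : x ≠ 0) :
    - windr C c (algebraMap (F2r C c) (F0r C c) x) =
      ∑ᶠ (p : Plk C (RatFunc C)) (_ : p ∈ Out C (c : C)), v2r c p x := (finsum_v2r c hx).symm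

variable {K : Type*} [Field K] [Algebra C K] [Algebra (RatFunc C) K]
  [IsScalarTower C (RatFunc C) K] [FiniteDimensional (RatFunc C) K] [CFF C K] [CharZero C]

theorem wd_neg {F F0 L : Type*} [Field F] [Field F0] [Field L] [Algebra F F0] [Algebra F L]
    (W : F0 → ℤ) (v : Pt F F0 L) (x : F0 ⊗[F] L) : wd (fun t => - W t) v x = - wd W v x := rfl

/-- V side -/
theorem wd_inn (c : Cˣ) (g : K) (hg : g ≠ 0) (v : Pt (RatFunc C) (F1r C c) K) :
    wd (fun t => windr C c (algebraMap (F1r C c) (F0r C c) t)) v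
      (1 ⊗ₜ g : F1r C c ⊗[RatFunc C] K) =
      degAt (fun P => down (RatFunc C) P ∈ Inn C (c : C) ∧ sp (side1r c) P = v) (dv C g) :=
  side_wd (side1r c) _ (windr_v1 c) g hg v

/-- D side -/
theorem wd_out (c : Cˣ) (g : K) (hg : g ≠ 0) (d : Pt (RatFunc C) (F2r C c) K) :
    wd (fun t => windr C c (algebraMap (F2r C c) (F0r C c) t)) d
      (1 ⊗ₜ g : F2r C c ⊗[RatFunc C] K) =
      - degAt (fun P => down (RatFunc C) P ∈ Out C (c : C) ∧ sp (side2r c) P = d) (dv C g) := by
  rw [← side_wd (side2r c) _ (windr_v2 c) g hg d, wd_neg, neg_neg]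

/-- if all orders on the side are divisible by n then all vertex degrees are -/
theorem dvd_wd_inn (c : Cˣ) {n : ℤ} (g : K) (hg : g ≠ 0)
    (hd : ∀ P : Plk C K, down (RatFunc C) P ∈ Inn C (c : C) → n ∣ ord P g)
    (v : Pt (RatFunc C) (F1r C c) K) :
    n ∣ wd (fun t => windr C c (algebraMap (F1r C c) (F0r C c) t)) v
      (1 ⊗ₜ g : F1r C c ⊗[RatFunc C] K) :=
  wd_dvd (side1r c) _ (windr_v1 c) g hg hd v

theorem dvd_wd_out (c : Cˣ) {n : ℤ} (g : K) (hg : g ≠ 0)
    (hd : ∀ P : Plk C K, down (RatFunc C) P ∈ Out C (c : C) → n ∣ ord P g)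
    (d : Pt (RatFunc C) (F2r C c) K) :
    n ∣ wd (fun t => windr C c (algebraMap (F2r C c) (F0r C c) t)) d
      (1 ⊗ₜ g : F2r C c ⊗[RatFunc C] K) := by
  have h := wd_dvd (side2r c) _ (windr_v2 c) g hg hd d
  rw [wd_neg, dvd_neg] at h
  exact h

/-- the places of K in the closed disc of radius c -/
theorem down_mem_Inn {c : C} {P : Plk C K} : down (RatFunc C) P ∈ Inn C c ↔
    ∃ a : C, ‖a‖ ≤ ‖c‖ ∧
      0 < ord P (algebraMap (RatFunc C) K RatFunc.X - algebraMap C K a) := by
  have h : ∀ a : C, algebraMap (RatFunc C) K RatFunc.X - algebraMap C K a =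
      algebraMap (RatFunc C) K (RatFunc.X - RatFunc.C a) := by
    intro a
    rw [map_sub, ratFunc_C_eq, ← IsScalarTower.algebraMap_apply C (RatFunc C) K]
  have h2 : (0 : ℤ) < ram (RatFunc C) P := by exact_mod_cast ram_pos P
  constructor
  · rintro ⟨a, ha, hp⟩
    refine ⟨a, ha, ?_⟩
    rw [h, ord_algebraMap]
    exact mul_pos h2 hp
  · rintro ⟨a, ha, hp⟩
    refine ⟨a, ha, ?_⟩
    rw [h, ord_algebraMap] at hp
    exact (mul_pos_iff_of_pos_left h2).1 hp

/-- T has no pole in the disc -/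
theorem ord_nonneg_of_Inn {c : C} {P : Plk C K} (h : down (RatFunc C) P ∈ Inn C c) :
    0 ≤ ord P (algebraMap (RatFunc C) K RatFunc.X) := by
  obtain ⟨a, -, hp⟩ := h
  have h1 := ord_poly_nonneg hp Polynomial.X
  rw [RatFunc.algebraMap_X] at h1
  rw [ord_algebraMap]
  exact mul_nonneg (Int.natCast_nonneg _) h1

/-- for helper628: the total winding number of a function whose orders on the disc are divisible
by n -/
theorem dvd_windr_norm (c : Cˣ) {n : ℤ} (h : K) (hh : h ≠ 0)
    (hd : ∀ P : Plk C K, down (RatFunc C) P ∈ Inn C (c : C) → n ∣ ord P h) :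
    n ∣ windr C c (algebraMap (RatFunc C) (F0r C c) (Algebra.norm (RatFunc C) h)) := by
  rw [IsScalarTower.algebraMap_apply (RatFunc C) (F1r C c) (F0r C c)]
  exact dvd_norm (side1r c) (fun t => windr C c (algebraMap (F1r C c) (F0r C c) t))
    (windr_v1 c) h hh hd

/-- the same with the hypothesis at all places which are not poles of T -/
theorem dvd_windr_norm' (c : Cˣ) {n : ℤ} (h : K) (hh : h ≠ 0)
    (hd : ∀ P : Plk C K, 0 ≤ ord P (algebraMap (RatFunc C) K RatFunc.X) → n ∣ ord P h) :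
    n ∣ windr C c (algebraMap (RatFunc C) (F0r C c) (Algebra.norm (RatFunc C) h)) :=
  dvd_windr_norm c h hh fun P hP => hd P (ord_nonneg_of_Inn hP)

theorem wd_inn1 (g : K) (hg : g ≠ 0) (v : Pt (RatFunc C) (F1 C) K) :
    wd (fun t => wind C (algebraMap (F1 C) (F0 C) t)) v
      (1 ⊗ₜ g : F1 C ⊗[RatFunc C] K) =
      degAt (fun P => down (RatFunc C) P ∈ Inn C (1 : C) ∧ sp (side1 C) P = v) (dv C g) :=
  side_wd (side1 C) _ (fun _ hx => (finsum_v1 hx).symm) g hg v

theorem wd_out1 (g : K) (hg : g ≠ 0) (d : Pt (RatFunc C) (F2 C) K) :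
    wd (fun t => wind C (algebraMap (F2 C) (F0 C) t)) d
      (1 ⊗ₜ g : F2 C ⊗[RatFunc C] K) =
      - degAt (fun P => down (RatFunc C) P ∈ Out C (1 : C) ∧ sp (side2 C) P = d) (dv C g) := by
  have h : ∀ x : F2 C, x ≠ 0 → - wind C (algebraMap (F2 C) (F0 C) x) =
      ∑ᶠ (p : Plk C (RatFunc C)) (_ : p ∈ Out C 1), v2 C p x := fun _ hx => (finsum_v2 hx).symm
  rw [← side_wd (side2 C) _ h g hg d, wd_neg, neg_neg]

end wind

section moves

variable {C : Type u} [NontriviallyNormedField C] [IsUltrametricDist C] [CompleteSpace C]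
  [IsAlgClosed C] [CharZero C] {K : Type u} [Field K] [Algebra C K] [Algebra (RatFunc C) K]
  [IsScalarTower C (RatFunc C) K] [FiniteDimensional (RatFunc C) K] [CFF C K]

/-- the moves for the circle of radius c -/
theorem moves (c : Cˣ) {n : ℕ} (hn : n ≠ 0) :
    Moves (RatFunc C) (F1r C c) (F2r C c) (windr C c) n (divSub C K n) := by
  refine moves_of (by exact_mod_cast hn) ?_
  intro K' _ _ _ _ _ _ _ _ _
  have : FiniteDimensional (RatFunc C) K' := FiniteDimensional.trans (RatFunc C) K K'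
  refine ⟨⟨fun P => down (RatFunc C) P ∈ Inn C (c : C), sp (side1r c), sp (side2r c),
    fun g hg v => wd_inn c g hg v, fun g hg d => wd_out c g hg d⟩, ?_, ?_⟩
  · obtain ⟨p, hp⟩ := exists_place (0 : C)
    obtain ⟨R, hR⟩ := exists_over (L := K') p
    refine ⟨R, ?_⟩
    change down (RatFunc C) R ∈ Inn C (c : C)
    rw [hR]
    exact ⟨0, by rw [norm_zero]; exact norm_nonneg _, hp⟩
  · intro σ P hP
    have h1 := sp_conj (side1r c) (σ.restrictScalars (RatFunc C)) P hP
    refine ⟨?_, h1⟩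
    change down (RatFunc C) (conj C σ P) ∈ Inn C (c : C)
    have h0 : down (RatFunc C) (conj C (σ.restrictScalars (RatFunc C)) P) =
      down (RatFunc C) P := down_conj _ P
    have h2 : down (RatFunc C) (conj C σ P) = down (RatFunc C) P := h0
    rw [h2]
    exact hP

/-- the moves for the unit circle -/
theorem moves1 {n : ℕ} (hn : n ≠ 0) :
    Moves (RatFunc C) (F1 C) (F2 C) (wind C) n (divSub C K n) := by
  refine moves_of (by exact_mod_cast hn) ?_
  intro K' _ _ _ _ _ _ _ _ _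
  have : FiniteDimensional (RatFunc C) K' := FiniteDimensional.trans (RatFunc C) K K'
  refine ⟨⟨fun P => down (RatFunc C) P ∈ Inn C (1 : C), sp (side1 C), sp (side2 C),
    fun g hg v => wd_inn1 g hg v, fun g hg d => wd_out1 g hg d⟩, ?_, ?_⟩
  · obtain ⟨p, hp⟩ := exists_place (0 : C)
    obtain ⟨R, hR⟩ := exists_over (L := K') p
    refine ⟨R, ?_⟩
    change down (RatFunc C) R ∈ Inn C (1 : C)
    rw [hR]
    exact ⟨0, by rw [norm_zero]; exact norm_nonneg _, hp⟩
  · intro σ P hP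
    have h1 := sp_conj (side1 C) (σ.restrictScalars (RatFunc C)) P hP
    refine ⟨?_, h1⟩
    change down (RatFunc C) (conj C σ P) ∈ Inn C (1 : C)
    have h0 : down (RatFunc C) (conj C (σ.restrictScalars (RatFunc C)) P) =
      down (RatFunc C) P := down_conj _ P
    have h2 : down (RatFunc C) (conj C σ P) = down (RatFunc C) P := h0
    rw [h2]
    exact hP

end moves

end P025H613
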