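import Vale.Agent.P025.R2.H613.MovesOf

/-!
# P025 G-WIND (4.3): the sum formula at a vertex from the local norm formula
-/

open TensorProduct P025H544 Vale.Agent.P019P P025H492 P025H816

namespace P025H613

theorem degAt_apply {X : Type*} (p : X → Prop) [DecidablePred p] (D : X →₀ ℤ) (s : Finset X)
    (hs : D.support ⊆ s) : degAt p D = ∑ P ∈ s with p P, D P := by
  classical
  induction D using Finsupp.induction_linear generalizing s with
  | zero => simp
  | add f g hf hg =>
    rw [map_add, hf (s ∪ (f.support ∪ g.support)) (by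
        intro x hx; simp only [Finset.mem_union]; exact Or.inr (Or.inl hx)),
      hg (s ∪ (f.support ∪ g.support)) (by
        intro x hx; simp only [Finset.mem_union]; exact Or.inr (Or.inr hx)),
      ← Finset.sum_add_distrib]
    symm
    have : ∀ P, (f + g) P = f P + g P := fun P => rfl
    simp only [this]
    refine Finset.sum_subset (fun P hP => ?_) (fun P hP hP' => ?_)
    · rw [Finset.mem_filter] at hP ⊢
      exact ⟨Finset.mem_union_left _ hP.1, hP.2⟩
    · rw [Finset.mem_filter] at hP hP'
      have h1 : P ∉ (f + g).support := fun h => hP' ⟨hs h, hP.2⟩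
      rw [Finsupp.notMem_support_iff] at h1
      exact h1
  | single Q m =>
    rw [degAt_single]
    by_cases hm : m = 0
    · subst hm
      simp
    · have hQ : Q ∈ s := hs (by simp [Finsupp.mem_support_iff, hm])
      by_cases hpQ : p Q
      · rw [if_pos hpQ, Finset.sum_eq_single Q]
        · simp
        · intro b _ hb
          rw [Finsupp.single_apply, if_neg hb.symm]
        · intro h
          exact absurd (Finset.mem_filter.2 ⟨hQ, hpQ⟩) h
      · rw [if_neg hpQ]
        symm
        refine Finset.sum_eq_zero fun b hb => ?_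
        rw [Finset.mem_filter] at hb
        rw [Finsupp.single_apply, if_neg]
        rintro rfl
        exact hpQ hb.2

variable {C F Fi K : Type*} [Field C] [Field F] [Field Fi] [Field K] [Algebra C F] [Algebra F Fi]
  [Algebra C K] [Algebra F K] [IsScalarTower C F K] [CFF C F] [CFF C K] [FiniteDimensional F K]
  [Algebra.IsSeparable F K]

/-- the sum formula at a vertex -/
theorem side_sum (W' : Fi → ℤ) (In0 : Plk C F → Prop) (o : Plk C F → Fi → ℤ)
    (ordV : Plk C K → Fi ⊗[F] K → ℤ) (pt : Plk C K → Pt F Fi K)
    (h1 : ∀ x : Fi, x ≠ 0 → W' x = ∑ᶠ (p : Plk C F) (_ : In0 p), o p x)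
    (h2 : ∀ x : Fi ⊗[F] K, IsUnit x → ∀ p : Plk C F, In0 p → o p (Algebra.norm Fi x) =
      ∑ P' ∈ (over_finite (L := K) p).toFinset, ordV P' x)
    (h3 : ∀ P' : Plk C K, In0 (down F P') → ∀ x y : Fi ⊗[F] K, x - y ∈ (pt P').asIdeal →
      ordV P' x = ordV P' y)
    (h4 : ∀ P' : Plk C K, In0 (down F P') → ∀ g : K, g ≠ 0 →
      ordV P' (1 ⊗ₜ g : Fi ⊗[F] K) = ord P' g)
    (g : K) (hg : g ≠ 0) (v : Pt F Fi K) :
    wd W' v (1 ⊗ₜ g : Fi ⊗[F] K) =
      degAt (fun P => In0 (down F P) ∧ pt P = v) (dv C g) := by
  classical
  let i1 : Fintype (Pt F Fi K) := Fintype.ofFinite _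
  set X : Fi ⊗[F] K := mix (idm v) (1 ⊗ₜ g) with hX
  have hXu : IsUnit X := isUnit_mix (idm_mul_self v) (isUnit_one_tmul hg)
  have hn : Algebra.norm Fi X = Algebra.norm Fi (Ideal.Quotient.mk v.asIdeal
      (1 ⊗ₜ g : Fi ⊗[F] K)) := by
    rw [norm_eq_prod, Finset.prod_eq_single v]
    · rw [hX, mk_mix_of_one _ _ _ (mk_idm_self v)]
    · intro w _ hw
      rw [hX, mk_mix_of_zero _ _ _ (mk_idm_of_ne hw), map_one]
    · simp
  have hn0 : Algebra.norm Fi X ≠ 0 := (hXu.map (Algebra.norm Fi)).ne_zero
  have hval : ∀ P' : Plk C K, In0 (down F P') →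
      ordV P' X = if pt P' = v then dv C g P' else 0 := by
    intro P' hP'
    split_ifs with h
    · rw [dv_apply, ← h4 P' hP' g hg]
      refine h3 P' hP' _ _ ?_
      rw [← Ideal.Quotient.eq, hX, h]
      exact mk_mix_of_one _ _ _ (mk_idm_self v)
    · have h5 := h4 P' hP' 1 one_ne_zero
      rw [ord_one] at h5
      rw [← h5]
      refine h3 P' hP' _ _ ?_
      rw [← Ideal.Quotient.eq, hX, mk_mix_of_zero _ _ _ (mk_idm_of_ne h)]
      exact (map_one _).symm
  rw [wd, ← hn, h1 _ hn0]
  -- reduce to a finite sum
  set T : Finset (Plk C F) := (dv C g).support.image (down F) with hT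
  have hfs : ∀ p : Plk C F, (∑ᶠ (_ : In0 p), o p (Algebra.norm Fi X)) =
      if In0 p then ∑ P' ∈ (over_finite (L := K) p).toFinset,
        (if pt P' = v then dv C g P' else 0) else 0 := by
    intro p
    split_ifs with hp
    · rw [finsum_eq_if, if_pos hp, h2 X hXu p hp]
      refine Finset.sum_congr rfl fun P' hP' => ?_
      rw [mem_over] at hP'
      exact hval P' (by rwa [hP'])
    · rw [finsum_eq_if, if_neg hp]
  rw [finsum_congr hfs]
  rw [finsum_eq_sum_of_support_subset (s := T)]
  · rw [degAt_apply _ (dv C g) (dv C g).support (Finset.Subset.refl _), Finset.sum_filter,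
      ← Finset.sum_fiberwise_of_maps_to (s := (dv C g).support)
      (t := T) (g := down F) (fun P' hP' => Finset.mem_image_of_mem _ hP')
      (f := fun P' => if In0 (down F P') ∧ pt P' = v then dv C g P' else 0)]
    · refine Finset.sum_congr rfl fun p _ => ?_
      split_ifs with hp
      · symm
        rw [← Finset.sum_filter_add_sum_filter_not (over_finite (L := K) p).toFinset
          (fun P' => P' ∈ (dv C g).support)]
        rw [Finset.sum_eq_zero (s := {P' ∈ (over_finite (L := K) p).toFinset |
          ¬ P' ∈ (dv C g).support}), add_zero]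
        · refine Finset.sum_congr ?_ fun P' hP' => ?_
          · ext P'
            rw [Finset.mem_filter, Finset.mem_filter, mem_over, and_comm]
          · rw [Finset.mem_filter] at hP'
            have h7 : In0 (down F P') := by rw [mem_over.1 hP'.1]; exact hp
            simp [h7]
        · intro P' hP'
          rw [Finset.mem_filter, Finsupp.notMem_support_iff] at hP'
          rw [hP'.2]
          simp
      · symm
        refine Finset.sum_eq_zero fun P' hP' => ?_
        rw [Finset.mem_filter] at hP'
        rw [if_neg]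
        rw [hP'.2]
        exact fun h => hp h.1
  · intro p hp
    by_contra hpT
    apply hp
    dsimp only
    split_ifs with h
    · refine Finset.sum_eq_zero fun P' hP' => ?_
      rw [mem_over] at hP'
      have h6 : dv C g P' = 0 := by
        rw [← Finsupp.notMem_support_iff]
        intro h6
        exact hpT (by rw [hT, ← hP']; exact_mod_cast Finset.mem_image_of_mem _ h6)
      rw [h6, ite_self]
    · rfl

end P025H613
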