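import Vale.Agent.P025.R2.H613.Wind

/-!
# P025 G-WIND: sums of windings over the edges at a vertex, windings of a norm
-/

open TensorProduct P025H544

namespace P025H613

instance reduced_tensor (F A K : Type*) [Field F] [Field A] [Algebra F A] [Field K] [Algebra F K]
    [FiniteDimensional F K] [Algebra.IsSeparable F K] : IsReduced (A ⊗[F] K) := by
  have h : Algebra.FormallyUnramified F K := Algebra.FormallyUnramified.of_isSeparable F K
  have h2 : Algebra.FormallyUnramified A (A ⊗[F] K) := inferInstance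
  exact Algebra.FormallyUnramified.isReduced_of_field A _

instance artin_tensor (F A K : Type*) [Field F] [Field A] [Algebra F A] [Field K] [Algebra F K]
    [FiniteDimensional F K] : IsArtinianRing (A ⊗[F] K) := IsArtinianRing.of_finite A _

section sumV

variable {F F1 F0 K : Type*} [Field F] [Field F1] [Field F0] [Algebra F F1] [Algebra F F0]
  [Algebra F1 F0] [IsScalarTower F F1 F0] [Field K] [Algebra F K]

theorem mk_bc_one {v : Pt F F1 K} {w : Pt F F0 K} (h : edge F F1 F0 K w = v) {e : F1 ⊗[F] K}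
    (he : Ideal.Quotient.mk v.asIdeal e = 1) :
    Ideal.Quotient.mk w.asIdeal (bc F F1 F0 K e) = 1 := by
  subst h
  rw [← map_one (Ideal.Quotient.mk _), Ideal.Quotient.eq] at he ⊢
  have h1 : bc F F1 F0 K (e - 1) ∈ w.asIdeal := he
  rwa [map_sub, map_one] at h1

theorem mk_bc_zero {v : Pt F F1 K} {w : Pt F F0 K} (h : edge F F1 F0 K w = v) {e : F1 ⊗[F] K}
    (he : Ideal.Quotient.mk v.asIdeal e = 0) :
    Ideal.Quotient.mk w.asIdeal (bc F F1 F0 K e) = 0 := by
  subst h
  rw [Ideal.Quotient.eq_zero_iff_mem] at he ⊢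
  exact he

theorem bc_mix (e x : F1 ⊗[F] K) :
    bc F F1 F0 K (mix e x) = mix (bc F F1 F0 K e) (bc F F1 F0 K x) := by
  simp [mix]

variable [FiniteDimensional F K] [Algebra.IsSeparable F K] {W : F0 → ℤ}

/-- sum of the windings over the edges at a vertex = winding of the norm from the residue field
of the vertex -/
theorem sum_edge (hW : IsWind W) [Fintype (Pt F F0 K)] [DecidableEq (Pt F F1 K)]
    (v : Pt F F1 K) {x : F1 ⊗[F] K} (hx : IsUnit x) :
    ∑ w : Pt F F0 K with edge F F1 F0 K w = v, wd W w (bc F F1 F0 K x) =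
      W (algebraMap F1 F0 (Algebra.norm F1 (Ideal.Quotient.mk v.asIdeal x))) := by
  classical
  let i1 : Fintype (Pt F F1 K) := Fintype.ofFinite _
  have h1 : Algebra.norm F1 (mix (idm v) x) = Algebra.norm F1 (Ideal.Quotient.mk v.asIdeal x) := by
    rw [norm_eq_prod, Finset.prod_eq_single v]
    · rw [mk_mix_of_one _ _ _ (mk_idm_self v)]
    · intro w _ hw
      rw [mk_mix_of_zero _ _ _ (mk_idm_of_ne hw), map_one]
    · simp
  rw [← h1, ← norm_map (F := F)]
  have hu : IsUnit (mix (idm v) x) := isUnit_mix (idm_mul_self v) hx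
  have h2 := total (A := F0 ⊗[F] K) hW (hu.map (bc F F1 F0 K))
  change _ = W (Algebra.norm F0 (bc F F1 F0 K _))
  rw [h2, Finset.sum_filter]
  refine Finset.sum_congr rfl fun w _ => ?_
  rw [bc_mix]
  split_ifs with h
  · rw [wd_mix_one]
    exact mk_bc_one h (mk_idm_self v)
  · rw [wd_mix_zero hW]
    exact mk_bc_zero rfl (mk_idm_of_ne h)

end sumV

section normSum

variable {F F0 K K' : Type*} [Field F] [Field F0] [Algebra F F0]
  [Field K] [Algebra F K] [Field K'] [Algebra F K'] [Algebra K K'] [IsScalarTower F K K']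

attribute [local instance] Algebra.TensorProduct.rightAlgebra

/-- `(F0 ⊗ K) ⊗ K' = F0 ⊗ K'` -/
noncomputable def phi (F F0 K K' : Type*) [Field F] [Field F0] [Algebra F F0]
    [Field K] [Algebra F K] [Field K'] [Algebra F K'] [Algebra K K'] [IsScalarTower F K K'] :
    (F0 ⊗[F] K) ⊗[K] K' ≃ₐ[F0] F0 ⊗[F] K' :=
  Algebra.IsPushout.cancelBaseChangeAlg F F0 K (F0 ⊗[F] K) K'

theorem phi_one_tmul (g : K') : phi F F0 K K' (1 ⊗ₜ g) = 1 ⊗ₜ g := by
  simp [phi]

theorem phi_tmul_one (e : F0 ⊗[F] K) :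
    phi F F0 K K' (e ⊗ₜ 1) = tL F F0 (IsScalarTower.toAlgHom F K K') e := by
  rw [← AlgEquiv.eq_symm_apply]
  induction e with
  | zero => simp
  | add x y hx hy => rw [TensorProduct.add_tmul, hx, hy, map_add, map_add]
  | tmul a b =>
    rw [tL_tmul, phi, Algebra.IsPushout.cancelBaseChangeAlg_symm_tmul]
    have : (algebraMap K K' b) = b • (1 : K') := Algebra.algebraMap_eq_smul_one b
    rw [IsScalarTower.coe_toAlgHom', this, ← TensorProduct.smul_tmul]
    congr 1
    rw [Algebra.smul_def]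
    change a ⊗ₜ[F] b = (1 ⊗ₜ[F] b) * (a ⊗ₜ[F] 1)
    simp

theorem phi_mix (e : F0 ⊗[F] K) (g : K') :
    phi F F0 K K' (mix e (1 ⊗ₜ g)) =
      mix (tL F F0 (IsScalarTower.toAlgHom F K K') e) (1 ⊗ₜ g) := by
  have h : algebraMap (F0 ⊗[F] K) ((F0 ⊗[F] K) ⊗[K] K') e = e ⊗ₜ 1 := rfl
  rw [mix, mix, h, map_add, map_mul, map_sub, map_one, phi_tmul_one, phi_one_tmul]
  rfl

theorem mk_tL_one {w : Pt F F0 K} {w' : Pt F F0 K'}
    (h : ptMap F F0 (IsScalarTower.toAlgHom F K K') w' = w) {e : F0 ⊗[F] K}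
    (he : Ideal.Quotient.mk w.asIdeal e = 1) :
    Ideal.Quotient.mk w'.asIdeal (tL F F0 (IsScalarTower.toAlgHom F K K') e) = 1 := by
  subst h
  rw [← map_one (Ideal.Quotient.mk _), Ideal.Quotient.eq] at he ⊢
  have h1 : tL F F0 (IsScalarTower.toAlgHom F K K') (e - 1) ∈ w'.asIdeal := he
  rwa [map_sub, map_one] at h1

theorem mk_tL_zero {w : Pt F F0 K} {w' : Pt F F0 K'}
    (h : ptMap F F0 (IsScalarTower.toAlgHom F K K') w' = w) {e : F0 ⊗[F] K}
    (he : Ideal.Quotient.mk w.asIdeal e = 0) :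
    Ideal.Quotient.mk w'.asIdeal (tL F F0 (IsScalarTower.toAlgHom F K K') e) = 0 := by
  subst h
  rw [Ideal.Quotient.eq_zero_iff_mem] at he ⊢
  exact he

variable [FiniteDimensional F K] [Algebra.IsSeparable F K] [FiniteDimensional F K']
  [Algebra.IsSeparable F K'] {W : F0 → ℤ}

theorem isUnit_one_tmul {F A K : Type*} [Field F] [Field A] [Algebra F A] [Field K] [Algebra F K]
    {g : K} (hg : g ≠ 0) : IsUnit (1 ⊗ₜ g : A ⊗[F] K) :=
  (IsUnit.mk0 g hg).map (Algebra.TensorProduct.includeRight : K →ₐ[F] A ⊗[F] K)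

/-- winding of a norm = sum of the windings over the fibre -/
theorem wd_norm (hW : IsWind W) [Fintype (Pt F F0 K')] [DecidableEq (Pt F F0 K)]
    (w : Pt F F0 K) {g : K'} (hg : g ≠ 0) :
    wd W w (1 ⊗ₜ Algebra.norm K g : F0 ⊗[F] K) =
      ∑ w' : Pt F F0 K' with ptMap F F0 (IsScalarTower.toAlgHom F K K') w' = w,
        wd W w' (1 ⊗ₜ g : F0 ⊗[F] K') := by
  classical
  have : FiniteDimensional K K' := FiniteDimensional.right F K K'
  let i1 : Fintype (Pt F F0 K) := Fintype.ofFinite _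
  have hN : Algebra.norm K g ≠ 0 := Algebra.norm_ne_zero_iff.2 hg
  set e : F0 ⊗[F] K := idm w with he
  have h1 : Algebra.norm F0 (phi F F0 K K' (mix e (1 ⊗ₜ g))) =
      Algebra.norm F0 (mix e (1 ⊗ₜ Algebra.norm K g : F0 ⊗[F] K)) := by
    rw [Algebra.norm_eq_of_algEquiv, ← Algebra.norm_norm (S := F0 ⊗[F] K), norm_mix,
      norm_one_tmul]
    · rfl
    · rw [he, idm_mul_self]
  have hu : IsUnit (mix e (1 ⊗ₜ Algebra.norm K g : F0 ⊗[F] K)) :=
    isUnit_mix (idm_mul_self w) (isUnit_one_tmul hN)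
  have h2 := total hW hu
  rw [Finset.sum_eq_single w, wd_mix_one _ _ _ (mk_idm_self w)] at h2
  rotate_left
  · intro w2 _ hw2
    exact wd_mix_zero hW _ _ _ (mk_idm_of_ne hw2)
  · simp
  rw [← h2, ← h1, phi_mix]
  have hee : tL F F0 (IsScalarTower.toAlgHom F K K') e * tL F F0 (IsScalarTower.toAlgHom F K K') e
      = tL F F0 (IsScalarTower.toAlgHom F K K') e := by
    rw [← map_mul, he, idm_mul_self]
  rw [total hW (isUnit_mix hee (isUnit_one_tmul hg)), Finset.sum_filter]
  refine Finset.sum_congr rfl fun w' _ => ?_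
  split_ifs with h
  · exact wd_mix_one _ _ _ (mk_tL_one h (mk_idm_self w))
  · exact wd_mix_zero hW _ _ _ (mk_tL_zero rfl (mk_idm_of_ne h))

end normSum

end P025H613
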