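import Vale.Agent.P025.R2.H628.Clos
import Vale.Agent.P025.R2.H535.Closure2
import Vale.Agent.P025.R2.H535.KumL
import Vale.Agent.P025.R2.H450.RnsDef
import Vale.Agent.P025.R2.H613.Sums
import Vale.Agent.P025.R2.H492.Ext3

/-!
# P025 G-III: (III) from (III') (helper613)
-/

universe u

open TensorProduct Polynomial P025H373 P025H628 P025H544 P025H492 P025H450 P025H535
  Vale.Agent.P019P

namespace P025H613

/-- The Kummer extension of `Z` given by a function with divisor divisible by `q`. -/
theorem exists_kummer {C Z : Type u} [Field C] [Field Z] [Algebra C Z] [CFF C Z] [CharZero C]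
    {q : ℕ} (hq : q ≠ 0) {y : Z} (hy : y ≠ 0) (hd : ∀ P : Plk C Z, (q : ℤ) ∣ ord P y) :
    ∃ (L : Type u) (_ : Field L) (_ : Algebra C L) (_ : Algebra Z L) (_ : IsScalarTower C Z L)
      (_ : CFF C L) (_ : FiniteDimensional Z L), IsGalois Z L ∧ Group.IsSolvable (L ≃ₐ[Z] L) ∧
      IsUnr C Z L ∧ Module.finrank Z L ∣ q ∧ ∃ z : L, z ^ q = algebraMap Z L y := by
  let p : Z[X] := X ^ q - Polynomial.C y
  let L := p.SplittingField
  let i1 : Algebra C L := inferInstanceAs (Algebra C p.SplittingField)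
  have t1 : IsScalarTower C Z L := inferInstanceAs (IsScalarTower C Z p.SplittingField)
  have c1 : CFF C L := cff_of_finite (K := Z)
  have hsf : IsSplittingField Z L (X ^ q - Polynomial.C y : Z[X]) :=
    inferInstanceAs (IsSplittingField Z p.SplittingField p)
  obtain ⟨h1, h2, h3, h4⟩ := kummer_cov (k := C) (Z := Z) (L := L) hq hy hd
  refine ⟨L, inferInstance, i1, inferInstance, t1, c1, inferInstance, h1, h2, h3, h4, ?_⟩
  have hs := SplittingField.splits p
  obtain ⟨z, hz⟩ := hs.exists_eval_eq_zero (by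
    rw [degree_map, degree_X_pow_sub_C (Nat.pos_of_ne_zero hq)]
    exact_mod_cast hq)
  refine ⟨z, ?_⟩
  rw [eval_map_algebraMap, map_sub, map_pow, aeval_X, aeval_C, sub_eq_zero] at hz
  exact hz

/-- (III) from (III'), one function. -/
theorem three_step {C : Type u} [NontriviallyNormedField C] [IsUltrametricDist C]
    [CompleteSpace C] [IsAlgClosed C] [CharZero C] {K Z W : Type u} [Field K] [Field Z] [Field W]
    [Algebra C K] [Algebra C Z] [Algebra C W] [Algebra K Z] [Algebra K W] [Algebra Z W]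
    [Algebra (RatFunc C) K] [Algebra (RatFunc C) Z] [IsScalarTower C K Z] [IsScalarTower C K W]
    [IsScalarTower C Z W] [IsScalarTower K Z W] [IsScalarTower (RatFunc C) K Z]
    [IsScalarTower C (RatFunc C) K] [IsScalarTower C (RatFunc C) Z]
    [FiniteDimensional (RatFunc C) K] [CFF C K] [CFF C Z] [CFF C W] {N : ℕ} (hcov : Cov N C K W)
    (c : Cˣ) (j : Z →ₐ[RatFunc C] F1r C c ⊗[RatFunc C] K)
    (hj : ∀ k : K, j (algebraMap K Z k) = 1 ⊗ₜ k) {q : ℕ} (hq : 0 < q) {y : Z} (hy : y ≠ 0)
    (hd : ∀ P : Plk C Z, (q : ℤ) ∣ ord P y) {h : K} (w : F1r C c ⊗[RatFunc C] K)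
    (hw : (1 : F1r C c) ⊗ₜ[RatFunc C] h = j y * w ^ q) :
    ∃ (L : Type u) (_ : Field L) (_ : Algebra C L) (_ : Algebra K L) (_ : Algebra (RatFunc C) L)
      (_ : IsScalarTower C K L) (_ : IsScalarTower C (RatFunc C) L)
      (_ : IsScalarTower (RatFunc C) K L) (_ : CFF C L), Cov (N * q) C K L ∧
      ∃ s : F1r C c ⊗[RatFunc C] L, s ^ q = (1 : F1r C c) ⊗ₜ[RatFunc C] algebraMap K L h := by
  have hF0 : CharZero (RatFunc C) := charZero_of_injective_algebraMap (algebraMap C _).injective
  have hK0 : CharZero K := charZero_of_injective_algebraMap (algebraMap C K).injective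
  have hZ0 : CharZero Z := charZero_of_injective_algebraMap (algebraMap C Z).injective
  obtain ⟨L1, _, _, _, _, _, _, hg1, hs1, hu1, hn1, z, hz⟩ :=
    exists_kummer (C := C) hq.ne' hy hd
  let i1 : Algebra K L1 := ((algebraMap Z L1).comp (algebraMap K Z)).toAlgebra
  have t1 : IsScalarTower K Z L1 := IsScalarTower.of_algebraMap_eq' rfl
  have t2 : IsScalarTower C K L1 := IsScalarTower.of_algebraMap_eq fun x => by
    rw [IsScalarTower.algebraMap_apply C Z L1, IsScalarTower.algebraMap_apply C K Z,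
      ← IsScalarTower.algebraMap_apply K Z L1]
  have := hcov.fin
  have := hcov.gal
  have := hcov.sol
  obtain ⟨M, _, _, _, _, _, _, _, _, _, hg, hs, hu, jj, hjj⟩ :=
    exists_galois_closure (k := C) (K := K) (Z := Z) (W := W) (L := L1) hcov.unr hu1
  let i2 : Algebra (RatFunc C) M := ((algebraMap K M).comp (algebraMap (RatFunc C) K)).toAlgebra
  have t3 : IsScalarTower (RatFunc C) K M := IsScalarTower.of_algebraMap_eq' rfl
  have t4 : IsScalarTower C (RatFunc C) M := IsScalarTower.of_algebraMap_eq fun x => by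
    rw [IsScalarTower.algebraMap_apply (RatFunc C) K M,
      ← IsScalarTower.algebraMap_apply C (RatFunc C) K, ← IsScalarTower.algebraMap_apply C K M]
  let i3 : Algebra Z M := ((algebraMap L1 M).comp (algebraMap Z L1)).toAlgebra
  have t5 : IsScalarTower Z L1 M := IsScalarTower.of_algebraMap_eq' rfl
  have t6 : IsScalarTower K Z M := IsScalarTower.of_algebraMap_eq fun x => by
    rw [IsScalarTower.algebraMap_apply Z L1 M, ← IsScalarTower.algebraMap_apply K Z L1,
      ← IsScalarTower.algebraMap_apply K L1 M]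
  have hfin : FiniteDimensional (RatFunc C) M := FiniteDimensional.trans (RatFunc C) K M
  have hz' : (algebraMap L1 M z) ^ q = algebraMap Z M y := by
    rw [← map_pow, hz, ← IsScalarTower.algebraMap_apply]
  obtain ⟨s, hs'⟩ := isPow_tensor (F := RatFunc C) (F1 := F1r C c) (K := K) (Z := Z) (L := M)
    j hj q y (algebraMap L1 M z) hz' h w hw
  refine ⟨M, inferInstance, inferInstance, inferInstance, i2, inferInstance, t4, t3,
    inferInstance, ⟨inferInstance, hg, hs, ?_, fun {_} {_} => hu⟩, s, hs'⟩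
  obtain ⟨k, hk⟩ := hcov.deg
  refine ⟨(k + 1) * jj, hjj.trans ?_⟩
  rw [pow_mul]
  refine pow_dvd_pow_of_dvd ((mul_dvd_mul hk hn1).trans ?_) _
  rw [mul_pow]
  exact mul_dvd_mul (pow_dvd_pow N (Nat.le_succ k)) (dvd_pow_self q (Nat.succ_ne_zero k))

end P025H613
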